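import Vale.Agent.P242.H975.Defs
import Mathlib.Analysis.InnerProductSpace.PiL2
import Mathlib.Analysis.SpecialFunctions.Sqrt
import Mathlib.Tactic
import Mathlib.Analysis.InnerProductSpace.Continuous

/-!
# P242, PART B: first consequences of the hypotheses
-/

open scoped RealInnerProductSpace Topology
open Metric

set_option linter.unusedSectionVars false

noncomputable section

namespace Vale.Agent.P242.PB

/-- The numerical conditions. `ρ`, `c` are the constants of the gluing statement. -/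
structure Num (P : Par) (ρ c C2 θ θ' : ℝ) : Prop where
  hr0 : 0 < P.r0
  hρ0 : 0 ≤ ρ
  hc1 : 1 ≤ c
  hC1 : 1 ≤ P.C1
  hC2 : 5 / 2 * (ρ + 4) ≤ C2
  hC20 : C2 ≤ P.C0
  hΛ2 : 2 ≤ P.Λ
  hΛC : C2 ≤ P.Λ
  hτ : 1 ≤ P.τ
  hB : 1 ≤ P.B
  hε0 : 0 < P.ε
  hε1 : P.ε ≤ 1
  hδ0 : 0 ≤ P.δ
  hεB : P.B * P.ε ≤ 1 / 2
  hεC : P.C1 * P.C0 * P.ε ≤ 1 / 2
  hδε : P.B * P.δ ≤ P.ε
  hθ0 : 0 ≤ θ
  hθ'0 : 0 ≤ θ'
  hK1 : 8 * (P.τ * (P.C1 + 6)) ≤ P.Λ
  hεΛ : 100 * P.ε * P.Λ ≤ 1

section
variable {X : Type*} {E : Type} [MetricSpace X] [NormedAddCommGroup E] [InnerProductSpace ℝ E]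
variable {P : Par} {A : Data X E} {ρ c C2 θ θ' : ℝ}

theorem Num.Λ0 (hn : Num P ρ c C2 θ θ') : 0 < P.Λ := by linarith [hn.hΛ2]

theorem Num.r_pos (hn : Num P ρ c C2 θ θ') (k : ℕ) : 0 < P.r k :=
  div_pos hn.hr0 (pow_pos hn.Λ0 _)

theorem Num.r_succ (hn : Num P ρ c C2 θ θ') (k : ℕ) : P.r k = P.Λ * P.r (k + 1) := by
  have h := hn.Λ0.ne'
  unfold Par.r
  rw [pow_succ]
  field_simp

theorem Num.C2_ge (hn : Num P ρ c C2 θ θ') : 10 ≤ C2 := by
  have := hn.hC2; have := hn.hρ0; linarith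

theorem Num.C0_ge (hn : Num P ρ c C2 θ θ') : 10 ≤ P.C0 := by
  have := hn.C2_ge; have := hn.hC20; linarith

/-- `mm` as a seminorm -/
def mmS (P : Par) (A : Data X E) (k : ℕ) (x : X) : Seminorm ℝ E :=
  Seminorm.of (mm P A k x)
    (by
      intro v w
      unfold mm
      have h1 := map_add_le_add (A.nn k x) v w
      have h2 := map_add_le_add (A.N k x) v w
      have h3 : 0 ≤ √(P.B * A.D k x) := Real.sqrt_nonneg _
      refine max_le ?_ ?_
      · exact h1.trans (add_le_add (le_max_left _ _) (le_max_left _ _))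
      · calc √(P.B * A.D k x) * A.N k x (v + w)
            ≤ √(P.B * A.D k x) * (A.N k x v + A.N k x w) := mul_le_mul_of_nonneg_left h2 h3
          _ = √(P.B * A.D k x) * A.N k x v + √(P.B * A.D k x) * A.N k x w := by ring
          _ ≤ _ := add_le_add (le_max_right _ _) (le_max_right _ _))
    (by
      intro a v
      unfold mm
      rw [map_smul_eq_mul, map_smul_eq_mul, Real.norm_eq_abs]
      rw [show √(P.B * A.D k x) * (|a| * A.N k x v) = |a| * (√(P.B * A.D k x) * A.N k x v) by ring,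
        mul_max_of_nonneg _ _ (abs_nonneg a)])

theorem mmS_apply (k : ℕ) (x : X) (v : E) : mmS P A k x v = mm P A k x v := rfl

/-- `mp` as a seminorm -/
def mpS (P : Par) (A : Data X E) (k : ℕ) (x y : X) : Seminorm ℝ E := mmS P A k x ⊔ mmS P A k y

theorem mpS_apply (k : ℕ) (x y : X) (v : E) : mpS P A k x y v = mp P A k x y v := rfl

theorem mm_nonneg (k : ℕ) (x : X) (v : E) : 0 ≤ mm P A k x v := apply_nonneg (mmS P A k x) v

theorem mp_nonneg (k : ℕ) (x y : X) (v : E) : 0 ≤ mp P A k x y v := apply_nonneg (mpS P A k x y) v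

theorem mm_add (k : ℕ) (x : X) (v w : E) : mm P A k x (v + w) ≤ mm P A k x v + mm P A k x w :=
  map_add_le_add (mmS P A k x) v w

theorem mp_add (k : ℕ) (x y : X) (v w : E) :
    mp P A k x y (v + w) ≤ mp P A k x y v + mp P A k x y w :=
  map_add_le_add (mpS P A k x y) v w

theorem mm_neg (k : ℕ) (x : X) (v : E) : mm P A k x (-v) = mm P A k x v :=
  map_neg_eq_map (mmS P A k x) v

theorem mp_neg (k : ℕ) (x y : X) (v : E) : mp P A k x y (-v) = mp P A k x y v :=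
  map_neg_eq_map (mpS P A k x y) v

theorem mp_sub_rev (k : ℕ) (x y : X) (v w : E) : mp P A k x y (v - w) = mp P A k x y (w - v) :=
  map_sub_rev (mpS P A k x y) v w

theorem mm_sub_rev (k : ℕ) (x : X) (v w : E) : mm P A k x (v - w) = mm P A k x (w - v) :=
  map_sub_rev (mmS P A k x) v w

theorem mp_comm (k : ℕ) (x y : X) (v : E) : mp P A k x y v = mp P A k y x v := max_comm _ _

theorem mm_le_mp (k : ℕ) (x y : X) (v : E) : mm P A k x v ≤ mp P A k x y v := le_max_left _ _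

theorem mm_le_mp' (k : ℕ) (x y : X) (v : E) : mm P A k y v ≤ mp P A k x y v := le_max_right _ _

theorem mp_self (k : ℕ) (x : X) (v : E) : mp P A k x x v = mm P A k x v := max_self _

theorem nn_le_mm (k : ℕ) (x : X) (v : E) : A.nn k x v ≤ mm P A k x v := le_max_left _ _

theorem sN_le_mm (k : ℕ) (x : X) (v : E) :
    √(P.B * A.D k x) * A.N k x v ≤ mm P A k x v := le_max_right _ _

theorem N_nonneg (k : ℕ) (x : X) (v : E) : 0 ≤ A.N k x v := apply_nonneg _ _

theorem nn_nonneg (k : ℕ) (x : X) (v : E) : 0 ≤ A.nn k x v := apply_nonneg _ _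

variable (hn : Num P ρ c C2 θ θ') (hA : Hyp P A)
include hn hA

theorem D_pos (k : ℕ) (x : X) : 0 < A.D k x := by
  obtain ⟨d, hd, h⟩ := hA.h6a k
  exact hd.trans_le (h x)

theorem D_le (k : ℕ) (x : X) : A.D k x ≤ P.δ := by
  refine le_trans ?_ (hA.h6c (k + 1) x)
  exact Finset.single_le_sum (f := fun j => A.D j x) (fun j _ => (D_pos hn hA j x).le)
    (Finset.mem_range.2 (Nat.lt_succ_self k))

theorem BD_le (k : ℕ) (x : X) : P.B * A.D k x ≤ P.ε :=
  (mul_le_mul_of_nonneg_left (D_le hn hA k x) (by linarith [hn.hB])).trans hn.hδε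

theorem sBD_le (k : ℕ) (x : X) : √(P.B * A.D k x) ≤ √P.ε := Real.sqrt_le_sqrt (BD_le hn hA k x)

theorem sqrtε_le : √P.ε ≤ 1 := by
  rw [Real.sqrt_le_one]; exact hn.hε1

theorem nn_le (k : ℕ) (x : X) (v : E) : A.nn k x v ≤ √P.ε * A.N k x v := by
  have h := hA.h4a k x v
  have h2 : (√P.ε * A.N k x v) ^ 2 = P.ε * A.N k x v ^ 2 := by
    rw [mul_pow, Real.sq_sqrt hn.hε0.le]
  rw [← h2] at h
  exact le_of_sq_le_sq h (mul_nonneg (Real.sqrt_nonneg _) (N_nonneg k x v))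

theorem mm_le (k : ℕ) (x : X) (v : E) : mm P A k x v ≤ √P.ε * A.N k x v :=
  max_le (nn_le hn hA k x v) (mul_le_mul_of_nonneg_right (sBD_le hn hA k x) (N_nonneg k x v))

theorem N_succ_le (k : ℕ) (x : X) (v : E) : A.N (k + 1) x v ≤ 2 * A.N k x v := by
  have h := hA.h2 k x v v
  have h1 := hA.h4a k x v
  rw [hA.gN, hA.gN] at h
  have h2 : P.B * A.nn k x v * A.nn k x v ≤ 1 / 2 * A.N k x v ^ 2 := by
    have := mul_le_mul_of_nonneg_left h1 (by linarith [hn.hB] : (0:ℝ) ≤ P.B)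
    have h3 := mul_le_mul_of_nonneg_right hn.hεB (sq_nonneg (A.N k x v))
    nlinarith
  have h3 := (abs_le.1 h).2
  have h4 := N_nonneg (A := A) k x v
  have h5 := N_nonneg (A := A) (k + 1) x v
  refine abs_le_of_sq_le_sq' (a := A.N (k + 1) x v) (b := 2 * A.N k x v) (by nlinarith)
    (by linarith) |>.2

theorem N_le_succ (k : ℕ) (x : X) (v : E) : A.N k x v ≤ 2 * A.N (k + 1) x v := by
  have h := hA.h2 k x v v
  have h1 := hA.h4a k x v
  rw [hA.gN, hA.gN] at h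
  have h2 : P.B * A.nn k x v * A.nn k x v ≤ 1 / 2 * A.N k x v ^ 2 := by
    have := mul_le_mul_of_nonneg_left h1 (by linarith [hn.hB] : (0:ℝ) ≤ P.B)
    have h3 := mul_le_mul_of_nonneg_right hn.hεB (sq_nonneg (A.N k x v))
    nlinarith
  have h3 := (abs_le.1 h).1
  have h4 := N_nonneg (A := A) k x v
  have h5 := N_nonneg (A := A) (k + 1) x v
  refine abs_le_of_sq_le_sq' (a := A.N k x v) (b := 2 * A.N (k + 1) x v) (by nlinarith)
    (by linarith) |>.2

theorem N_near (k : ℕ) {x y : X} (h : dist x y ≤ P.C0 * P.r k) (v : E) :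
    A.N k y v ≤ 2 * A.N k x v := by
  have h0 := hA.h3 k x y h v v
  have h1 := hA.h4a k x v
  have hr := hn.r_pos k
  rw [hA.gN, hA.gN] at h0
  have hC1 : 0 ≤ P.C1 := by linarith [hn.hC1]
  have h2 : P.C1 * (dist x y / P.r k) * A.nn k x v * A.nn k x v ≤ 1 / 2 * A.N k x v ^ 2 := by
    have h3 : dist x y / P.r k ≤ P.C0 := (div_le_iff₀ hr).2 h
    have h4 : P.C1 * (dist x y / P.r k) ≤ P.C1 * P.C0 := mul_le_mul_of_nonneg_left h3 hC1
    have h5 : P.C1 * (dist x y / P.r k) * A.nn k x v * A.nn k x v ≤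
        P.C1 * P.C0 * A.nn k x v ^ 2 := by
      have := mul_le_mul_of_nonneg_right h4 (sq_nonneg (A.nn k x v))
      nlinarith
    have h6 : P.C1 * P.C0 * A.nn k x v ^ 2 ≤ P.C1 * P.C0 * (P.ε * A.N k x v ^ 2) :=
      mul_le_mul_of_nonneg_left h1 (mul_nonneg hC1 (by linarith [hn.C0_ge]))
    have h7 := mul_le_mul_of_nonneg_right hn.hεC (sq_nonneg (A.N k x v))
    nlinarith
  have h3 := (abs_le.1 h0).1
  have h4 := N_nonneg (A := A) k x v
  have h5 := N_nonneg (A := A) k y v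
  refine abs_le_of_sq_le_sq' (a := A.N k y v) (b := 2 * A.N k x v) (by nlinarith)
    (by linarith) |>.2

end

end Vale.Agent.P242.PB
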