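import Vale.Agent.P242.H975.Step

/-!
# P242, PART B: choice of the constants
-/

open scoped RealInnerProductSpace Topology
open Metric

set_option linter.unusedSectionVars false

noncomputable section

namespace Vale.Agent.P242.PB

/-- the numerical conditions which are used besides `Num`, `Num2`, `Num3` -/
structure Num4 (P : Par) (κ θ θ' B3 : ℝ) : Prop where
  hΛ : 100 ≤ P.Λ
  hεC : 20 * P.C1 * P.ε ≤ 1
  κΛ : 200 * κ * P.Λ ≤ 1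
  θ1 : P.C1 ≤ θ
  θ'1 : P.C1 ≤ θ'
  sm : θ * P.ε + 2 * B3 * P.δ ≤ 1 / 50

/-- first half: the choice of `θ`, `θ'`, `a` -/
theorem consts1 {c C1 C2 : ℝ} (hc : 1 ≤ c) (hC1 : 1 ≤ C1) (hC2 : 10 ≤ C2) :
    ∃ a : ℝ, 0 < a ∧ ∀ Λ τ : ℝ, 1 ≤ τ → τ ^ 2 ≤ a * Λ →
      100 ≤ Λ ∧ C2 ≤ Λ ∧ 8 * (τ * (C1 + 6)) ≤ Λ ∧
      (τ * (C1 + 6)) ^ 2 / Λ ≤ 1 ∧ 9 * C2 * ((τ * (C1 + 6)) ^ 2 / Λ) ≤ 1 ∧
      (54 * c ^ 2 * C2 + 2) * ((τ * (C1 + 6)) ^ 2 / Λ) ≤ 1 / 4 := by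
  have hK : 0 < 4 * (54 * c ^ 2 * C2 + 2) * (C1 + 6) ^ 2 * (C2 + 100) := by positivity
  refine ⟨1 / (4 * (54 * c ^ 2 * C2 + 2) * (C1 + 6) ^ 2 * (C2 + 100)), by positivity, ?_⟩
  intro Λ τ hτ h
  have hc2 : 1 ≤ c ^ 2 := by nlinarith
  have hτ2 : 1 ≤ τ ^ 2 := by nlinarith
  have hq : 1 ≤ 4 * (54 * c ^ 2 * C2 + 2) := by nlinarith
  have h6 : 7 ≤ C1 + 6 := by linarith
  have h7 : 49 ≤ (C1 + 6) ^ 2 := by nlinarith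
  have h1 : τ ^ 2 * (4 * (54 * c ^ 2 * C2 + 2) * (C1 + 6) ^ 2 * (C2 + 100)) ≤ Λ := by
    rw [one_div, ← div_eq_inv_mul, le_div_iff₀ hK] at h
    exact h
  have hM : (C1 + 6) ^ 2 * (C2 + 100) ≤ 4 * (54 * c ^ 2 * C2 + 2) * (C1 + 6) ^ 2 * (C2 + 100) := by
    have h0 : 0 ≤ (C1 + 6) ^ 2 * (C2 + 100) := by positivity
    nlinarith
  have h2 : τ ^ 2 * ((C1 + 6) ^ 2 * (C2 + 100)) ≤ Λ :=
    (mul_le_mul_of_nonneg_left hM (by positivity)).trans h1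
  have h3 : C2 + 100 ≤ Λ := by
    have h4 : C2 + 100 ≤ (C1 + 6) ^ 2 * (C2 + 100) := by nlinarith
    have h5 : (C1 + 6) ^ 2 * (C2 + 100) ≤ τ ^ 2 * ((C1 + 6) ^ 2 * (C2 + 100)) := by
      have h0 : 0 ≤ (C1 + 6) ^ 2 * (C2 + 100) := by positivity
      nlinarith
    linarith
  have hΛ : 0 < Λ := by linarith
  have h8 : (54 * c ^ 2 * C2 + 2) * ((τ * (C1 + 6)) ^ 2 / Λ) ≤ 1 / 4 := by
    rw [← mul_div_assoc, div_le_iff₀ hΛ]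
    have h9 : τ ^ 2 * (4 * (54 * c ^ 2 * C2 + 2) * (C1 + 6) ^ 2) ≤
        τ ^ 2 * (4 * (54 * c ^ 2 * C2 + 2) * (C1 + 6) ^ 2 * (C2 + 100)) := by
      refine mul_le_mul_of_nonneg_left ?_ (by positivity)
      refine le_mul_of_one_le_right (by positivity) (by linarith)
    nlinarith
  have ht0 : 0 ≤ (τ * (C1 + 6)) ^ 2 / Λ := by positivity
  have h9 : 9 * C2 ≤ 54 * c ^ 2 * C2 + 2 := by nlinarith
  refine ⟨by linarith, by linarith, ?_, ?_, ?_, h8⟩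
  · have h4 : 8 * (τ * (C1 + 6)) ≤ τ ^ 2 * ((C1 + 6) ^ 2 * (C2 + 100)) := by
      have e1 : τ * (C1 + 6) ≤ (τ * (C1 + 6)) ^ 2 := by
        have : 1 ≤ τ * (C1 + 6) := by nlinarith
        nlinarith
      have e2 : 0 ≤ (τ * (C1 + 6)) ^ 2 := by positivity
      have e3 : (τ * (C1 + 6)) ^ 2 * 8 ≤ (τ * (C1 + 6)) ^ 2 * (C2 + 100) :=
        mul_le_mul_of_nonneg_left (by linarith) e2
      nlinarith
    linarith
  · nlinarith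
  · nlinarith [mul_le_mul_of_nonneg_right h9 ht0]

/-- the choice of `ε₀` -/
theorem exists_eps (M : ℝ) (hM : 1 ≤ M) : ∃ ε₀ : ℝ, 0 < ε₀ ∧ ∀ ε : ℝ, 0 < ε → ε ≤ ε₀ →
    √ε * M ≤ 1 ∧ ε ≤ √ε ∧ ε ≤ 1 := by
  refine ⟨(1 / M) ^ 2, by positivity, fun ε h0 h => ?_⟩
  have hM0 : 0 < M := by linarith
  have h1 : √ε ≤ 1 / M := by
    have := Real.sqrt_le_sqrt h
    rwa [Real.sqrt_sq (by positivity)] at this
  have h2 : √ε * M ≤ 1 := by rwa [le_div_iff₀ hM0] at h1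
  have h3 : √ε ≤ 1 := h1.trans (by rw [div_le_one hM0]; exact hM)
  have h4 : ε = √ε * √ε := (Real.mul_self_sqrt h0.le).symm
  have h5 := Real.sqrt_nonneg ε
  refine ⟨h2, by nlinarith, by nlinarith⟩

/-- second half: all conditions from the smallness of `s = √ε` -/
theorem consts2 {ρ c C1 C2 C0 Λ τ B ε δ r0 s G k1 b1 B3 θ θ' : ℝ} (hρ : 0 ≤ ρ) (hc : 1 ≤ c)
    (hC1 : 1 ≤ C1) (h10 : 10 ≤ C2)
    (hC2 : 5 / 2 * (ρ + 4) ≤ C2) (hC0 : C2 ≤ C0) (hτ : 1 ≤ τ) (hB : 1 ≤ B)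
    (hΛ : 100 ≤ Λ) (hΛC : C2 ≤ Λ) (h8 : 8 * k1 ≤ Λ) (ht1 : k1 ^ 2 / Λ ≤ 1)
    (ht9 : 9 * C2 * (k1 ^ 2 / Λ) ≤ 1) (ht54 : (54 * c ^ 2 * C2 + 2) * (k1 ^ 2 / Λ) ≤ 1 / 4)
    (hθ' : θ' = 2 * (12 * c ^ 2 * C1 * C2 + 2 * C1 + 1)) (hθ : θ = 2 * C1 * C2 + θ' + 1)
    (hk1 : k1 = τ * (C1 + 6)) (hb1 : b1 = (B + θ) * k1 ^ 2)
    (hG : G = c * (15 * (2 * C2 + 2)) ^ 2 * (2 * b1) * 5)
    (hB3 : B3 = c * (15 * (2 * C2 + 2)) ^ 2 * (2 * b1) * B)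
    (hs : √ε = s) (hε : 0 < ε) (hs1 : ε ≤ s) (hε1 : ε ≤ 1) (hδ : 0 ≤ δ) (hBδ : B * δ ≤ ε)
    (hr0 : 0 < r0)
    (m1 : s * (1200 * G) ≤ 1) (m2 : s * (108 * G * k1 * (5 * C2 + 4)) ≤ 1)
    (m3 : s * (2400 * G * Λ) ≤ 1)
    (m4 : s * (2 * ((810 * c ^ 2 * C2 + 36) * b1 * (12 * G * k1))) ≤ 1)
    (m5 : s * (100 * Λ) ≤ 1) (m6 : s * (50 * (2 * B3 + θ)) ≤ 1) (m7 : s * (2 * B) ≤ 1)
    (m8 : s * (20 * C1 * C0) ≤ 1) :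
    Num ⟨C0, C1, Λ, τ, B, ε, δ, r0⟩ ρ c C2 θ θ' ∧
      Num2 ⟨C0, C1, Λ, τ, B, ε, δ, r0⟩ C2 (12 * (G * s)) θ B3 ∧
      Num3 ⟨C0, C1, Λ, τ, B, ε, δ, r0⟩ c C2 (12 * (G * s)) θ θ' B3 ∧
      Num4 ⟨C0, C1, Λ, τ, B, ε, δ, r0⟩ (12 * (G * s)) θ θ' B3 := by
  have hk0 : 1 ≤ k1 := by rw [hk1]; exact one_le_mul_of_one_le_of_one_le hτ (by linarith)
  have hθ'0 : 0 ≤ θ' := by rw [hθ']; positivity
  have hθ0 : 0 ≤ θ := by rw [hθ]; positivity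
  have hb0 : 0 ≤ b1 := by rw [hb1]; positivity
  have hG0 : 0 ≤ G := by rw [hG]; positivity
  have hB30 : 0 ≤ B3 := by rw [hB3]; positivity
  have hΛ0 : 0 < Λ := by linarith
  have hC00 : 0 < C0 := by linarith
  have hs0 : 0 ≤ s := hs ▸ Real.sqrt_nonneg ε
  have hδε : δ ≤ ε := (le_mul_of_one_le_left hδ hB).trans hBδ
  have e8 : ε * (20 * C1 * C0) ≤ 1 :=
    (mul_le_mul_of_nonneg_right hs1 (by positivity)).trans m8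
  have e7 : ε * (2 * B) ≤ 1 := (mul_le_mul_of_nonneg_right hs1 (by positivity)).trans m7
  have e6 : ε * (50 * (2 * B3 + θ)) ≤ 1 :=
    (mul_le_mul_of_nonneg_right hs1 (by positivity)).trans m6
  have e5 : ε * (100 * Λ) ≤ 1 := (mul_le_mul_of_nonneg_right hs1 (by positivity)).trans m5
  have e6' : θ * ε + 2 * B3 * δ ≤ 1 / 50 := by
    have := mul_le_mul_of_nonneg_left hδε (by positivity : 0 ≤ 2 * B3)
    linarith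
  have gamE : gam ⟨C0, C1, Λ, τ, B, ε, δ, r0⟩ c C2 θ = G * s := by
    simp only [gam, K2, B1, K1, hs]
    rw [hG, hb1, hk1]; ring
  have gam0 : 0 ≤ G * s := by positivity
  have gam1 : G * s ≤ 1 / 1200 := by linarith
  have t0 : 0 ≤ k1 ^ 2 / Λ := by positivity
  have q1E : q1 ⟨C0, C1, Λ, τ, B, ε, δ, r0⟩ (12 * (G * s)) = 12 * (G * s) * k1 / Λ := by
    simp only [q1, K1, hk1]
  obtain ⟨q, hq⟩ : ∃ q, q = 12 * (G * s) * k1 / Λ := ⟨_, rfl⟩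
  rw [← hq] at q1E
  have q1le : q ≤ 12 * (G * s) * k1 := by
    rw [hq, div_le_iff₀ hΛ0]
    have h0 : 0 ≤ 12 * (G * s) * k1 := by positivity
    exact le_mul_of_one_le_right h0 (by linarith)
  have B1E : B1 ⟨C0, C1, Λ, τ, B, ε, δ, r0⟩ θ = b1 := by
    simp only [B1, K1, hb1, hk1]
  have q10 : 0 ≤ q := by rw [hq]; positivity
  have m4' : (810 * c ^ 2 * C2 + 36) * b1 * q ≤ 1 / 2 := by
    have h0 : 0 ≤ (810 * c ^ 2 * C2 + 36) * b1 := by positivity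
    have := mul_le_mul_of_nonneg_left q1le h0
    linarith
  have hc2 : 1 ≤ c ^ 2 := one_le_pow₀ hc
  have gam2 : (G * s) ^ 2 ≤ 1 / 100 := by
    have := pow_le_pow_left₀ gam0 gam1 2
    norm_num at this ⊢
    linarith
  have th0E : th0 ⟨C0, C1, Λ, τ, B, ε, δ, r0⟩ C2 θ' =
      C1 * C2 + C1 * C2 * (k1 ^ 2 / Λ) + 9 * C2 * θ' * (k1 ^ 2 / Λ) := by
    simp only [th0, K1, hk1]; ring
  have e2 : C1 * C2 * (k1 ^ 2 / Λ) ≤ C1 * C2 := by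
    have h0 : 0 ≤ C1 * C2 := by positivity
    exact mul_le_of_le_one_right h0 ht1
  refine ⟨?_, ?_, ?_, ?_⟩
  · refine ⟨hr0, hρ, hc, hC1, hC2, hC0, by linarith, hΛC, hτ, hB, hε, hε1, hδ,
      ?_, ?_, hBδ, hθ0, hθ'0, hk1 ▸ h8, ?_⟩
    · linarith
    · linarith
    · linarith
  · refine ⟨by positivity, hB30, ?_, ?_⟩
    · linarith
    · rw [← hk1]
      have e : 9 * (12 * (G * s)) * k1 * (5 * C2 + 4) = s * (108 * G * k1 * (5 * C2 + 4)) := by ring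
      rw [e]; linarith
  · refine ⟨by rw [gamE]; linarith, by rw [gamE], ?_, ?_, ?_, ?_⟩
    · linarith
    · simp only [K2, B1E]
      rw [hB3]
    · rw [th1, th0E, B1E, q1E, gamE]
      have e1 : 135 * b1 * C2 * q ≤ 1 / 2 := by
        refine le_trans ?_ m4'
        have h0 : 0 ≤ b1 * q := mul_nonneg hb0 q10
        have h1 : 135 * C2 ≤ 810 * c ^ 2 * C2 + 36 := by
          have := le_mul_of_one_le_left (by linarith : 0 ≤ C2) hc2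
          linarith
        have := mul_le_mul_of_nonneg_right h1 h0
        linarith
      have e3 : 9 * C2 * θ' * (k1 ^ 2 / Λ) ≤ θ' := by
        have := mul_le_mul_of_nonneg_left ht9 hθ'0
        linarith
      rw [hθ]; linarith
    · rw [th1, th0E, B1E, q1E, gamE]
      have eK : K1 ⟨C0, C1, Λ, τ, B, ε, δ, r0⟩ = k1 := by simp only [K1, hk1]
      rw [eK]
      have e2' : C1 * k1 ^ 2 / Λ ≤ C1 := by
        rw [mul_div_assoc]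
        exact mul_le_of_le_one_right (by linarith) ht1
      have e4 : θ' * ((54 * c ^ 2 * C2 + 2) * (k1 ^ 2 / Λ)) ≤ θ' * (1 / 4) :=
        mul_le_mul_of_nonneg_left ht54 hθ'0
      have e5 : 6 * c ^ 2 * (C1 * C2 + C1 * C2 * (k1 ^ 2 / Λ) + 9 * C2 * θ' * (k1 ^ 2 / Λ) +
          135 * b1 * C2 * q) + (C1 + C1 * k1 ^ 2 / Λ + 2 * θ' * k1 ^ 2 / Λ) +
          36 * b1 * q + 10 * (G * s) ^ 2 =
          6 * c ^ 2 * (C1 * C2) + 6 * c ^ 2 * (C1 * C2 * (k1 ^ 2 / Λ)) + C1 + C1 * k1 ^ 2 / Λ +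
          θ' * ((54 * c ^ 2 * C2 + 2) * (k1 ^ 2 / Λ)) +
          (810 * c ^ 2 * C2 + 36) * b1 * q + 10 * (G * s) ^ 2 := by ring
      have e6 : 6 * c ^ 2 * (C1 * C2 * (k1 ^ 2 / Λ)) ≤ 6 * c ^ 2 * (C1 * C2) :=
        mul_le_mul_of_nonneg_left e2 (by positivity)
      have e7 : θ' * (3 / 4) = 3 / 2 * (12 * c ^ 2 * C1 * C2 + 2 * C1 + 1) := by rw [hθ']; ring
      have e8 : 0 ≤ 12 * c ^ 2 * C1 * C2 + 2 * C1 + 1 := by positivity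
      rw [e5]
      linarith
  · refine ⟨hΛ, ?_, ?_, ?_, ?_, ?_⟩
    · have : ε * (20 * C1 * 1) ≤ ε * (20 * C1 * C0) := by
        refine mul_le_mul_of_nonneg_left ?_ hε.le
        refine mul_le_mul_of_nonneg_left (by linarith) (by positivity)
      linarith
    · have e : 200 * (12 * (G * s)) * Λ = s * (2400 * G * Λ) := by ring
      rw [e]; exact m3
    · rw [hθ]
      have : 0 ≤ C1 * (C2 - 1) := mul_nonneg (by linarith) (by linarith)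
      have h3 : 0 ≤ C1 := by linarith
      linarith
    · rw [hθ']
      have : 0 ≤ 12 * c ^ 2 * C1 * C2 := by positivity
      linarith
    · exact e6'

/-- **The choice of the constants.** -/
theorem consts {ρ c C1 C2 C0 : ℝ} (hρ : 0 ≤ ρ) (hc : 1 ≤ c) (hC1 : 1 ≤ C1)
    (hC2 : 5 / 2 * (ρ + 4) ≤ C2) (hC0 : C2 ≤ C0) :
    ∃ a : ℝ, 0 < a ∧ ∀ Λ τ : ℝ, 1 ≤ τ → τ ^ 2 ≤ a * Λ → ∀ B : ℝ, 1 ≤ B →
      ∃ ε₀ : ℝ, 0 < ε₀ ∧ ∀ ε δ r0 : ℝ, 0 < ε → ε ≤ ε₀ → 0 ≤ δ → B * δ ≤ ε → 0 < r0 →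
        ∃ κ θ θ' B3 : ℝ, Num ⟨C0, C1, Λ, τ, B, ε, δ, r0⟩ ρ c C2 θ θ' ∧
          Num2 ⟨C0, C1, Λ, τ, B, ε, δ, r0⟩ C2 κ θ B3 ∧
          Num3 ⟨C0, C1, Λ, τ, B, ε, δ, r0⟩ c C2 κ θ θ' B3 ∧
          Num4 ⟨C0, C1, Λ, τ, B, ε, δ, r0⟩ κ θ θ' B3 := by
  have h10 : 10 ≤ C2 := by linarith
  obtain ⟨a, ha, H⟩ := consts1 hc hC1 h10
  refine ⟨a, ha, fun Λ τ hτ hτΛ B hB => ?_⟩
  obtain ⟨hΛ, hΛC, h8, ht1, ht9, ht54⟩ := H Λ τ hτ hτΛ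
  obtain ⟨θ', hθ'⟩ : ∃ x, x = 2 * (12 * c ^ 2 * C1 * C2 + 2 * C1 + 1) := ⟨_, rfl⟩
  obtain ⟨θ, hθ⟩ : ∃ x, x = 2 * C1 * C2 + θ' + 1 := ⟨_, rfl⟩
  obtain ⟨k1, hk1⟩ : ∃ x, x = τ * (C1 + 6) := ⟨_, rfl⟩
  obtain ⟨b1, hb1⟩ : ∃ x, x = (B + θ) * k1 ^ 2 := ⟨_, rfl⟩
  obtain ⟨G, hG⟩ : ∃ x, x = c * (15 * (2 * C2 + 2)) ^ 2 * (2 * b1) * 5 := ⟨_, rfl⟩
  obtain ⟨B3, hB3⟩ : ∃ x, x = c * (15 * (2 * C2 + 2)) ^ 2 * (2 * b1) * B := ⟨_, rfl⟩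
  rw [← hk1] at h8 ht1 ht9 ht54
  have hk0 : 0 ≤ k1 := by rw [hk1]; positivity
  have hθ'0 : 0 ≤ θ' := by rw [hθ']; positivity
  have hθ0 : 0 ≤ θ := by rw [hθ]; positivity
  have hb0 : 0 ≤ b1 := by rw [hb1]; positivity
  have hG0 : 0 ≤ G := by rw [hG]; positivity
  have hB30 : 0 ≤ B3 := by rw [hB3]; positivity
  have hΛ0 : 0 ≤ Λ := by linarith
  have hC00 : 0 ≤ C0 := by linarith
  have a1 : 0 ≤ 1200 * G := by positivity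
  have a2 : 0 ≤ 108 * G * k1 * (5 * C2 + 4) := by positivity
  have a3 : 0 ≤ 2400 * G * Λ := by positivity
  have a4 : 0 ≤ 2 * ((810 * c ^ 2 * C2 + 36) * b1 * (12 * G * k1)) := by positivity
  have a5 : 0 ≤ 100 * Λ := by positivity
  have a6 : 0 ≤ 50 * (2 * B3 + θ) := by positivity
  have a7 : 0 ≤ 2 * B := by positivity
  have a8 : 0 ≤ 20 * C1 * C0 := by positivity
  obtain ⟨ε₀, hε₀, Hε⟩ := exists_eps (1 + 1200 * G + 108 * G * k1 * (5 * C2 + 4) +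
    2400 * G * Λ + 2 * ((810 * c ^ 2 * C2 + 36) * b1 * (12 * G * k1)) + 100 * Λ +
    50 * (2 * B3 + θ) + 2 * B + 20 * C1 * C0) (by linarith)
  refine ⟨ε₀, hε₀, fun ε δ r0 hε hεε hδ hBδ hr0 => ?_⟩
  obtain ⟨hM, hs1, hε1⟩ := Hε ε hε hεε
  have hs0 : 0 ≤ √ε := Real.sqrt_nonneg ε
  exact ⟨12 * (G * √ε), θ, θ', B3, consts2 hρ hc hC1 h10 hC2 hC0 hτ hB hΛ hΛC h8 ht1 ht9 ht54
    hθ' hθ hk1 hb1 hG hB3 rfl hε hs1 hε1 hδ hBδ hr0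
    ((mul_le_mul_of_nonneg_left (by linarith) hs0).trans hM)
    ((mul_le_mul_of_nonneg_left (by linarith) hs0).trans hM)
    ((mul_le_mul_of_nonneg_left (by linarith) hs0).trans hM)
    ((mul_le_mul_of_nonneg_left (by linarith) hs0).trans hM)
    ((mul_le_mul_of_nonneg_left (by linarith) hs0).trans hM)
    ((mul_le_mul_of_nonneg_left (by linarith) hs0).trans hM)
    ((mul_le_mul_of_nonneg_left (by linarith) hs0).trans hM)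
    ((mul_le_mul_of_nonneg_left (by linarith) hs0).trans hM)⟩

end Vale.Agent.P242.PB
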