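import Vale.Agent.P242.H975.Consts
import Vale.Agent.P242.H588.PB

/-!
# P242, PART B: Theorem B from the gluing statement
-/

open scoped RealInnerProductSpace Topology
open Metric

universe u

namespace Vale.Agent.P242.PB

section
variable {X : Type u} {E : Type} [MetricSpace X] [NormedAddCommGroup E] [InnerProductSpace ℝ E]

/-- The hypotheses are monotone in `ε`. -/
theorem Hyp.mono {C0 C1 Λ τ B ε δ r0 ε' : ℝ} {A : Data X E} (hr0 : 0 < r0) (hΛ : 0 < Λ)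
    (h : Hyp ⟨C0, C1, Λ, τ, B, ε, δ, r0⟩ A) (hε : ε ≤ ε') :
    Hyp ⟨C0, C1, Λ, τ, B, ε', δ, r0⟩ A := by
  have hr : ∀ k, 0 < Par.r ⟨C0, C1, Λ, τ, B, ε, δ, r0⟩ k := fun k => div_pos hr0 (pow_pos hΛ k)
  refine ⟨h.symm, h.gN, h.pos, h.diam, fun k x y hd => ?_, h.h1b, h.h2, h.h3, fun k x v => ?_,
    h.h4b, h.h4c, h.h5, h.h6a, h.h6b, h.h6c, h.h7⟩
  · refine (h.h1a k x y hd).trans ?_
    exact mul_le_mul_of_nonneg_right hε (hr k).le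
  · refine (h.h4a k x v).trans ?_
    exact mul_le_mul_of_nonneg_right hε (sq_nonneg _)

theorem DenseAt.mono {C0 C1 Λ τ B ε δ r0 ε' : ℝ} {A : Data X E} (hr0 : 0 < r0) (hΛ : 0 < Λ)
    {x₀ : X} {k : ℕ}
    (h : DenseAt ⟨C0, C1, Λ, τ, B, ε, δ, r0⟩ A x₀ k) (hε : ε ≤ ε') :
    DenseAt ⟨C0, C1, Λ, τ, B, ε', δ, r0⟩ A x₀ k := by
  intro y hy j hj v hv
  obtain ⟨y', h1, h2⟩ := h y hy j hj v hv
  have hr : 0 < Par.r ⟨C0, C1, Λ, τ, B, ε, δ, r0⟩ j := div_pos hr0 (pow_pos hΛ j)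
  exact ⟨y', h1, h2.trans (mul_le_mul_of_nonneg_right hε hr.le)⟩

end

/-- **Theorem B** from the gluing statement. -/
theorem theoremB {E : Type} [NormedAddCommGroup E] [InnerProductSpace ℝ E]
    [FiniteDimensional ℝ E] {ρ : ℝ} (hρ : 0 ≤ ρ) (glue : GlueStatement E ρ) :
    ∃ C0 : ℝ, 1 ≤ C0 ∧ ∀ C1 : ℝ, 1 ≤ C1 → ∃ a : ℝ, 0 < a ∧
      ∀ Λ τ : ℝ, 1 ≤ τ → τ ^ 2 ≤ a * Λ → 0 < Λ ∧ ∀ B : ℝ, 1 ≤ B → ∃ ε₀ : ℝ, 0 < ε₀ ∧
        ∀ ε δ r0 : ℝ, 0 < ε → ε ≤ ε₀ → 0 < δ → δ ≤ ε₀ → 0 < r0 →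
          ∀ (X : Type u) [MetricSpace X] (A : Data X E),
            Hyp ⟨C0, C1, Λ, τ, B, ε, δ, r0⟩ A →
            ∃ G : X → E,
              (∀ x y, 1 / 2 * dist x y ≤ ‖G x - G y‖ ∧ ‖G x - G y‖ ≤ 2 * dist x y) ∧
              (CompleteSpace X → ∀ (x₀ : X) (k : ℕ),
                DenseAt ⟨C0, C1, Λ, τ, B, ε, δ, r0⟩ A x₀ k →
                ∀ z, ‖z - G x₀‖ ≤ r0 / Λ ^ k / 4 →
                  ∃ x, dist x₀ x ≤ 8 * (r0 / Λ ^ k) ∧ G x = z) := by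
  obtain ⟨c, hc, hglue⟩ := glue
  have hC : 10 ≤ 5 / 2 * (ρ + 4) := by linarith
  refine ⟨5 / 2 * (ρ + 4), by linarith, fun C1 hC1 => ?_⟩
  obtain ⟨a, ha, H⟩ := consts hρ hc hC1 le_rfl (le_refl (5 / 2 * (ρ + 4)))
  refine ⟨a, ha, fun Λ τ hτ hτΛ => ?_⟩
  have hΛ : 0 < Λ := by
    by_contra hcon
    have h1 : a * Λ ≤ 0 := mul_nonpos_of_nonneg_of_nonpos ha.le (not_lt.1 hcon)
    nlinarith
  refine ⟨hΛ, fun B hB => ?_⟩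
  obtain ⟨ε₀, hε₀, H2⟩ := H Λ τ hτ hτΛ B hB
  have hB0 : 0 < B := by linarith
  refine ⟨ε₀ / B, by positivity, fun ε δ r0 hε hε' hδ hδ' hr0 X _ A hA => ?_⟩
  have hle : ε₀ / B ≤ ε₀ := div_le_self hε₀.le hB
  have h1 : max ε (B * δ) ≤ ε₀ := by
    refine max_le (hε'.trans hle) ?_
    have := mul_le_mul_of_nonneg_left hδ' hB0.le
    rwa [mul_div_cancel₀ _ hB0.ne'] at this
  obtain ⟨κ, θ, θ', B3, n1, n2, n3, n4⟩ := H2 (max ε (B * δ)) δ r0 (lt_max_of_lt_left hε) h1 hδ.le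
    (le_max_right _ _) hr0
  rcases isEmpty_or_nonempty X with hX | hX
  · exact ⟨fun x => isEmptyElim x, fun x => isEmptyElim x, fun _ x => isEmptyElim x⟩
  have hA' := hA.mono hr0 hΛ (le_max_left ε (B * δ))
  have hsp : SmallPar ⟨5 / 2 * (ρ + 4), C1, Λ, τ, B, max ε (B * δ), δ, r0⟩ κ θ θ' B3 :=
    { r0 := hr0
      hΛ := n4.hΛ
      C0 := by show (1:ℝ) ≤ 5 / 2 * (ρ + 4); linarith
      C1 := hC1
      B := hB0.le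
      ε0 := n1.hε0.le
      εΛ := n1.hεΛ
      εC := n4.hεC
      Bδ := n1.hδε
      κ0 := n2.hκ0
      κΛ := n4.κΛ
      θ1 := n4.θ1
      θ'1 := n4.θ'1
      hB3 := n2.hB30
      sm := n4.sm }
  obtain ⟨G, hG1, hG2⟩ := theoremB_of_step hsp hA' (fun k s => step hglue n1 hA' n2 n3 s)
  refine ⟨G, hG1, fun hcomp x₀ k hD z hz => ?_⟩
  exact hG2 x₀ k (hD.mono hr0 hΛ (le_max_left ε (B * δ))) z hz

end Vale.Agent.P242.PB
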