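import Vale.Agent.P242.H975.Step7

/-!
# P242, PART B: the step lemma (package B-b)
-/

open scoped RealInnerProductSpace Topology
open Metric

set_option linter.unusedSectionVars false

noncomputable section

namespace Vale.Agent.P242.PB

section
variable {X : Type*} {E : Type} [MetricSpace X] [NormedAddCommGroup E] [InnerProductSpace ℝ E]
  [FiniteDimensional ℝ E]
variable {P : Par} {A : Data X E} {ρ c C2 θ θ' κ B3 : ℝ} {k : ℕ}

/-- **The step lemma.** -/
theorem step (hglue : GlueC E ρ c) (hn : Num P ρ c C2 θ θ') (hA : Hyp P A)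
    (h2 : Num2 P C2 κ θ B3) (h3 : Num3 P c C2 κ θ θ' B3) (S : St P A κ θ θ' B3 k) :
    ∃ S' : St P A κ θ θ' B3 (k + 1), ∀ x, ‖S'.F x - S.F x‖ ≤ P.r (k + 1) / 100 := by
  rcases isEmpty_or_nonempty X with hX | hX
  · exact ⟨⟨S.F, S.J, S.Δ, S.R, fun x => isEmptyElim x, fun x => isEmptyElim x,
      fun x => isEmptyElim x, fun x => isEmptyElim x, fun x => isEmptyElim x,
      fun x => isEmptyElim x, fun x => isEmptyElim x, fun x => isEmptyElim x⟩,
      fun x => isEmptyElim x⟩
  obtain ⟨Ji, hJ⟩ := exists_inv hn hA h2 S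
  obtain ⟨G⟩ := exists_gl hn hA h2 S hglue hJ (Th_symm hA S)
  have hr := hn.r_pos (k + 1)
  have hr2 := hn.r_pos (k + 2)
  have hclose : ∀ x, ‖G.Ψ (S.F x) - S.F x‖ ≤ P.r (k + 1) / 100 := by
    intro x
    refine (G.E3 x).trans ?_
    have h4 := (sg_le hn hA (k + 1) x x).trans (sqrtε_le hn hA)
    have h5 := gam_nonneg hn hA h2
    have h6 := sg_nonneg (P := P) (A := A) (k + 1) x x
    have h7 := h3.hγ
    calc _ ≤ 1 / 20 * (1 / 5) * P.r (k + 1) := by gcongr
      _ = _ := by ring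
  have hI3 : ∀ x v v', ⟪J' S G x v, J' S G x v'⟫ =
      A.g (k + 1) x v v' + R' S G x v v' + D' S G x v v' := by
    intro x v v'
    rw [D'_apply]; ring
  refine ⟨⟨fun x => G.Ψ (S.F x), J' S G, D' S G, R' S G, ?_, ?_, ?_, hI3, ?_, ?_, ?_, ?_⟩, hclose⟩
  · intro x v v'
    rw [D'_eq S G x v v' _ subset_rfl, D'_eq S G x v' v _ subset_rfl, real_inner_comm]
    congr 1
    refine Finset.sum_congr rfl fun a _ => ?_
    rw [Th_symm hA S (G.p a), Th_symm hA S x]
  · intro x y h
    exact nI1 hn hA h2 h3 S hJ G h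
  · intro x y h v
    exact nI2 hn hA h2 h3 S hJ G h v
  · intro x v v'
    exact nI3Δ hn hA h2 h3 S hJ G x v v'
  · intro x v v'
    exact nI3R hn hA h2 h3 S hJ G x v v'
  · intro x y h v v'
    exact nI4 hn hA h2 h3 S hJ G h v v'
  · intro x y h
    have hrs : P.r (k + 1) = P.Λ * P.r (k + 1 + 1) := hn.r_succ (k + 1)
    have hΛ := hn.hΛ2
    have hr2' : 0 < P.r (k + 1 + 1) := hr2
    rcases le_total (P.r (k + 1)) (dist x y) with h' | h'
    · have h5 := S.I5 x y h'
      have c1 := hclose x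
      have c2 := hclose y
      have e : S.F x - S.F y = (G.Ψ (S.F x) - G.Ψ (S.F y)) - (G.Ψ (S.F x) - S.F x) +
          (G.Ψ (S.F y) - S.F y) := by abel
      have d1 := norm_add_le ((G.Ψ (S.F x) - G.Ψ (S.F y)) - (G.Ψ (S.F x) - S.F x))
        (G.Ψ (S.F y) - S.F y)
      have d2 := norm_sub_le (G.Ψ (S.F x) - G.Ψ (S.F y)) (G.Ψ (S.F x) - S.F x)
      rw [← e] at d1
      have h6 : P.r (k + 1 + 1) ≤ P.r (k + 1) / 2 := by nlinarith
      show 4 / 5 * dist x y + P.r (k + 1 + 1) / 20 ≤ ‖G.Ψ (S.F x) - G.Ψ (S.F y)‖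
      linarith
    · have a1 := nI1 hn hA h2 h3 S hJ G h'
      have a2 : 97 / 100 * A.N (k + 1) x (A.u y - A.u x) ≤ ‖J' S G x (A.u y - A.u x)‖ := by
        have h4 := J_sq_aux hn hA h2 (R := R' S G x) (Δ := D' S G x) (k := k + 1) (x := x)
          (fun v => nI3Δ hn hA h2 h3 S hJ G x v v) (fun v => nI3R hn hA h2 h3 S hJ G x v v)
          (A.u y - A.u x) (‖J' S G x (A.u y - A.u x)‖ ^ 2)
          (by rw [← real_inner_self_eq_norm_sq, hI3])
        have h5 := (abs_le.1 h4).1
        have h6 := N_nonneg (A := A) (k + 1) x (A.u y - A.u x)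
        exact abs_le_of_sq_le_sq' (by nlinarith) (norm_nonneg _) |>.2
      have hC0 : dist x y ≤ P.C0 * P.r (k + 1) := by nlinarith [hn.C0_ge]
      have a3 := (abs_le.1 (hA.h1a (k + 1) x y hC0)).1
      rw [map_sub_rev] at a3
      have a4 := hA.h1b (k + 1) x y hC0
      have hC0' : dist y x ≤ P.C0 * P.r (k + 1) := by rwa [dist_comm]
      have a4' := hA.h1b (k + 1) y x hC0'
      have hd : 0 ≤ dist x y := dist_nonneg
      have a5 : mp P A (k + 1) x y (A.u y - A.u x) ≤ 2 * dist x y := by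
        have b1 := mm_le hn hA (k + 1) x (A.u y - A.u x)
        have b2 := mm_le hn hA (k + 1) y (A.u y - A.u x)
        have b3 := sqrtε_le hn hA
        have b4 := N_nonneg (A := A) (k + 1) x (A.u y - A.u x)
        have b5 := N_nonneg (A := A) (k + 1) y (A.u y - A.u x)
        have b6 := mul_le_mul_of_nonneg_right b3 b4
        have b7 := mul_le_mul_of_nonneg_right b3 b5
        rw [map_sub_rev] at a4
        rw [dist_comm y x] at a4'
        exact max_le (by linarith) (by linarith)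
      have a6 : κ / P.r (k + 1) * dist x y * mp P A (k + 1) x y (A.u y - A.u x) ≤
          1 / 50 * dist x y := by
        have hκ0 := h2.hκ0
        have hκ := h3.hκ
        have hM := mp_nonneg (P := P) (A := A) (k + 1) x y (A.u y - A.u x)
        calc _ ≤ κ / P.r (k + 1) * P.r (k + 1) * (2 * dist x y) := by gcongr
          _ = 2 * κ * dist x y := by field_simp
          _ ≤ _ := by nlinarith
      have a7 : P.ε * P.r (k + 1) ≤ 1 / 100 * dist x y := by
        have h6 := hn.hεΛ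
        rw [hrs]
        have h7 : P.ε * (P.Λ * P.r (k + 1 + 1)) = P.ε * P.Λ * P.r (k + 1 + 1) := by ring
        rw [h7]
        have h8 : P.ε * P.Λ ≤ 1 / 100 := by linarith
        have h9 := mul_le_mul_of_nonneg_right h8 hr2'.le
        linarith
      have e : J' S G x (A.u y - A.u x) = (G.Ψ (S.F y) - G.Ψ (S.F x)) -
          (G.Ψ (S.F y) - G.Ψ (S.F x) - J' S G x (A.u y - A.u x)) := by abel
      have d1 := norm_sub_le (G.Ψ (S.F y) - G.Ψ (S.F x))
        (G.Ψ (S.F y) - G.Ψ (S.F x) - J' S G x (A.u y - A.u x))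
      rw [← e, norm_sub_rev (G.Ψ (S.F y))] at d1
      show 4 / 5 * dist x y + P.r (k + 1 + 1) / 20 ≤ ‖G.Ψ (S.F x) - G.Ψ (S.F y)‖
      linarith

end

end Vale.Agent.P242.PB
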