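import Vale.Agent.P242.H975.Basic

/-!
# P242, PART B: local estimates for a level-`k` state
-/

open scoped RealInnerProductSpace Topology
open Metric

set_option linter.unusedSectionVars false

noncomputable section

namespace Vale.Agent.P242.PB

/-- numerical conditions involving `κ`, `B3` -/
structure Num2 (P : Par) (C2 κ θ B3 : ℝ) : Prop where
  hκ0 : 0 ≤ κ
  hB30 : 0 ≤ B3
  hs : 2 * B3 * P.δ + θ * P.ε ≤ 1 / 20
  hη : 9 * κ * (P.τ * (P.C1 + 6)) * (5 * C2 + 4) ≤ P.Λ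

/-- `√(B max (D x) (D y))` -/
def sg {X : Type*} {E : Type} [MetricSpace X] [NormedAddCommGroup E] [InnerProductSpace ℝ E]
    (P : Par) (A : Data X E) (k : ℕ) (x y : X) : ℝ := √(P.B * max (A.D k x) (A.D k y))

/-- `K1 = τ (C1 + 6)` -/
def K1 (P : Par) : ℝ := P.τ * (P.C1 + 6)

/-- `K2 = 2 C2 + 2` -/
def K2 (C2 : ℝ) : ℝ := 2 * C2 + 2

section
variable {X : Type*} {E : Type} [MetricSpace X] [NormedAddCommGroup E] [InnerProductSpace ℝ E]
  [FiniteDimensional ℝ E]
variable {P : Par} {A : Data X E} {ρ c C2 θ θ' κ B3 : ℝ} {k : ℕ}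

theorem sg_comm (k : ℕ) (x y : X) : sg P A k x y = sg P A k y x := by
  unfold sg; rw [max_comm]

theorem sg_nonneg (k : ℕ) (x y : X) : 0 ≤ sg P A k x y := Real.sqrt_nonneg _

/-- three nearby points -/
structure Near (P : Par) (A : Data X E) (C2 : ℝ) (k : ℕ) (x y p : X) : Prop where
  xy : dist x y ≤ P.r (k + 1)
  xp : dist x p ≤ C2 * P.r (k + 1)
  yp : dist y p ≤ C2 * P.r (k + 1)
  Dx : A.D (k + 1) p ≤ 2 * A.D (k + 1) x
  Dy : A.D (k + 1) p ≤ 2 * A.D (k + 1) y

theorem Near.swap {x y p : X} (h : Near P A C2 k x y p) : Near P A C2 k y x p :=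
  ⟨by rw [dist_comm]; exact h.xy, h.yp, h.xp, h.Dy, h.Dx⟩

variable (hn : Num P ρ c C2 θ θ') (hA : Hyp P A)
include hn hA

theorem K1_ge : 7 ≤ K1 P := by
  unfold K1
  nlinarith [hn.hC1, hn.hτ]

theorem r_le (k : ℕ) : C2 * P.r (k + 1) ≤ P.r k := by
  rw [hn.r_succ k]
  exact mul_le_mul_of_nonneg_right hn.hΛC (hn.r_pos _).le

theorem sx_le_sg (k : ℕ) (x y : X) : √(P.B * A.D k x) ≤ sg P A k x y :=
  Real.sqrt_le_sqrt (mul_le_mul_of_nonneg_left (le_max_left _ _) (by linarith [hn.hB]))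

theorem sy_le_sg (k : ℕ) (x y : X) : √(P.B * A.D k y) ≤ sg P A k x y :=
  Real.sqrt_le_sqrt (mul_le_mul_of_nonneg_left (le_max_right _ _) (by linarith [hn.hB]))

theorem sg_le (k : ℕ) (x y : X) : sg P A k x y ≤ √P.ε := by
  refine Real.sqrt_le_sqrt ?_
  rcases le_total (A.D k x) (A.D k y) with h | h
  · rw [max_eq_right h]; exact BD_le hn hA k y
  · rw [max_eq_left h]; exact BD_le hn hA k x

theorem sg_self_le (k : ℕ) (x y : X) : sg P A k x x ≤ sg P A k x y := by
  unfold sg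
  refine Real.sqrt_le_sqrt (mul_le_mul_of_nonneg_left ?_ (by linarith [hn.hB]))
  rw [max_self]; exact le_max_left _ _

/-- `mm_k(p; v) ≤ K1 mm_{k+1}(x; v)` -/
theorem mm_rel {x p : X} (h : dist x p ≤ P.C0 * P.r (k + 1))
    (hD : A.D (k + 1) p ≤ 2 * A.D (k + 1) x) (v : E) :
    mm P A k p v ≤ K1 P * mm P A (k + 1) x v := by
  have hτ0 : 0 ≤ P.τ := by linarith [hn.hτ]
  have hC1 : 0 ≤ P.C1 := by linarith [hn.hC1]
  have hm := mm_nonneg (P := P) (A := A) (k + 1) x v
  unfold K1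
  refine max_le ?_ ?_
  · have h1 := hA.h4c k p v
    have h2 := hA.h4b (k + 1) x p h v
    have h3 := nn_le_mm (P := P) (A := A) (k + 1) x v
    have h4 : P.τ * A.nn (k + 1) p v ≤ P.τ * (P.C1 * mm P A (k + 1) x v) :=
      mul_le_mul_of_nonneg_left (h2.trans (mul_le_mul_of_nonneg_left h3 hC1)) hτ0
    nlinarith
  · have hs : √(P.B * A.D k p) ≤ 3 / 2 * P.τ * √(P.B * A.D (k + 1) x) := by
      rw [show 3 / 2 * P.τ * √(P.B * A.D (k + 1) x) = √((3 / 2 * P.τ) ^ 2 * (P.B * A.D (k + 1) x)) by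
        rw [Real.sqrt_mul (sq_nonneg _), Real.sqrt_sq (by positivity)]]
      refine Real.sqrt_le_sqrt ?_
      have h1 := hA.h6b k p
      have hB : 0 ≤ P.B := by linarith [hn.hB]
      have h2 : A.D k p ≤ P.τ ^ 2 * (2 * A.D (k + 1) x) :=
        h1.trans (mul_le_mul_of_nonneg_left hD (sq_nonneg _))
      have h3 := mul_le_mul_of_nonneg_left h2 hB
      have h4 : 0 ≤ P.B * (P.τ ^ 2 * A.D (k + 1) x) :=
        mul_nonneg hB (mul_nonneg (sq_nonneg _) (D_pos hn hA _ x).le)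
      nlinarith
    have hN : A.N k p v ≤ 4 * A.N (k + 1) x v := by
      have h1 := N_le_succ hn hA k p v
      have h2 := N_near hn hA (k + 1) h v
      linarith
    have h3 := sN_le_mm (P := P) (A := A) (k + 1) x v
    have h5 := N_nonneg (A := A) k p v
    have h6 := N_nonneg (A := A) (k + 1) x v
    have h7 := Real.sqrt_nonneg (P.B * A.D (k + 1) x)
    calc √(P.B * A.D k p) * A.N k p v
        ≤ (3 / 2 * P.τ * √(P.B * A.D (k + 1) x)) * (4 * A.N (k + 1) x v) :=
          mul_le_mul hs hN h5 (by positivity)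
      _ = 6 * P.τ * (√(P.B * A.D (k + 1) x) * A.N (k + 1) x v) := by ring
      _ ≤ 6 * P.τ * mm P A (k + 1) x v := mul_le_mul_of_nonneg_left h3 (by positivity)
      _ ≤ _ := by nlinarith [mul_nonneg (mul_nonneg hτ0 hC1) hm]

theorem mm_rel_self (x : X) (v : E) : mm P A k x v ≤ K1 P * mm P A (k + 1) x v := by
  refine mm_rel hn hA ?_ ?_ v
  · rw [dist_self]; exact mul_nonneg (by linarith [hn.C0_ge]) (hn.r_pos _).le
  · linarith [D_pos hn hA (k + 1) x]

theorem mp_rel_pair (x y : X) (v : E) : mp P A k x y v ≤ K1 P * mp P A (k + 1) x y v := by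
  have hK := K1_ge hn hA
  refine max_le ((mm_rel_self hn hA x v).trans ?_) ((mm_rel_self hn hA y v).trans ?_)
  · exact mul_le_mul_of_nonneg_left (le_max_left _ _) (by linarith)
  · exact mul_le_mul_of_nonneg_left (le_max_right _ _) (by linarith)

theorem mp_rel {x p : X} (h : dist x p ≤ P.C0 * P.r (k + 1))
    (hD : A.D (k + 1) p ≤ 2 * A.D (k + 1) x) (v : E) :
    mp P A k x p v ≤ K1 P * mm P A (k + 1) x v :=
  max_le (mm_rel_self hn hA x v) (mm_rel hn hA h hD v)

/-- `mp_{k+1}(x, y; u y - u x) ≤ 2 σ r` -/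
theorem mp_w {x y : X} (h : dist x y ≤ P.r (k + 1)) :
    mp P A (k + 1) x y (A.u y - A.u x) ≤ 2 * sg P A (k + 1) x y * P.r (k + 1) := by
  have key : ∀ x y : X, dist x y ≤ P.r (k + 1) →
      mm P A (k + 1) x (A.u x - A.u y) ≤ 2 * sg P A (k + 1) x y * P.r (k + 1) := by
    intro x y h
    have hr := hn.r_pos (k + 1)
    have hC0 : dist x y ≤ P.C0 * P.r (k + 1) := by nlinarith [hn.C0_ge]
    have hs := sg_nonneg (P := P) (A := A) (k + 1) x y
    refine max_le ?_ ?_
    · have h5 := hA.h5 (k + 1) x y hC0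
      have hB : 0 ≤ P.B := by linarith [hn.hB]
      have h6 : P.B * P.r (k + 1) ^ 2 * (A.D (k + 1) x + A.D (k + 1) y) ≤
          (2 * sg P A (k + 1) x y * P.r (k + 1)) ^ 2 := by
        have h7 : sg P A (k + 1) x y ^ 2 = P.B * max (A.D (k + 1) x) (A.D (k + 1) y) :=
          Real.sq_sqrt (mul_nonneg hB ((D_pos hn hA _ x).le.trans (le_max_left _ _)))
        rw [mul_pow, mul_pow, h7]
        have h8 := le_max_left (A.D (k + 1) x) (A.D (k + 1) y)
        have h9 := le_max_right (A.D (k + 1) x) (A.D (k + 1) y)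
        have h10 := D_pos hn hA (k + 1) x
        have h11 : 0 ≤ P.B * P.r (k + 1) ^ 2 := mul_nonneg hB (sq_nonneg _)
        have h12 : A.D (k + 1) x + A.D (k + 1) y ≤ 4 * max (A.D (k + 1) x) (A.D (k + 1) y) := by
          linarith
        have := mul_le_mul_of_nonneg_left h12 h11
        nlinarith
      exact abs_le_of_sq_le_sq' (h5.trans h6) (by positivity) |>.2
    · have h1 := hA.h1b (k + 1) x y hC0
      have h2 := sx_le_sg hn hA (k + 1) x y
      calc √(P.B * A.D (k + 1) x) * A.N (k + 1) x (A.u x - A.u y)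
          ≤ sg P A (k + 1) x y * (2 * P.r (k + 1)) :=
            mul_le_mul h2 (by linarith) (N_nonneg _ _ _) hs
        _ = _ := by ring
  refine max_le ?_ ?_
  · rw [mm_sub_rev]; exact key x y h
  · rw [sg_comm]; exact key y x (by rwa [dist_comm])

theorem mm_wp {x p : X} (h : dist x p ≤ C2 * P.r (k + 1))
    (hD : A.D (k + 1) p ≤ 2 * A.D (k + 1) x) :
    mm P A (k + 1) x (A.u x - A.u p) ≤ 2 * C2 * √(P.B * A.D (k + 1) x) * P.r (k + 1) := by
  have hr := hn.r_pos (k + 1)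
  have hC0 : dist x p ≤ P.C0 * P.r (k + 1) :=
    h.trans (mul_le_mul_of_nonneg_right hn.hC20 hr.le)
  have hC2 := hn.C2_ge
  have hB : 0 ≤ P.B := by linarith [hn.hB]
  have hs := Real.sqrt_nonneg (P.B * A.D (k + 1) x)
  refine max_le ?_ ?_
  · have h5 := hA.h5 (k + 1) x p hC0
    have h6 : P.B * P.r (k + 1) ^ 2 * (A.D (k + 1) x + A.D (k + 1) p) ≤
        (2 * C2 * √(P.B * A.D (k + 1) x) * P.r (k + 1)) ^ 2 := by
      have h7 : √(P.B * A.D (k + 1) x) ^ 2 = P.B * A.D (k + 1) x :=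
        Real.sq_sqrt (mul_nonneg hB (D_pos hn hA _ x).le)
      rw [mul_pow, mul_pow, h7]
      have h10 := D_pos hn hA (k + 1) x
      have h11 : 0 ≤ P.B * P.r (k + 1) ^ 2 := mul_nonneg hB (sq_nonneg _)
      have h12 : A.D (k + 1) x + A.D (k + 1) p ≤ (2 * C2) ^ 2 * A.D (k + 1) x := by
        have h13 : (3 : ℝ) ≤ (2 * C2) ^ 2 := by nlinarith
        have h14 := mul_le_mul_of_nonneg_right h13 h10.le
        linarith
      have := mul_le_mul_of_nonneg_left h12 h11
      nlinarith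
    exact abs_le_of_sq_le_sq' (h5.trans h6) (by positivity) |>.2
  · have h1 := hA.h1b (k + 1) x p hC0
    calc √(P.B * A.D (k + 1) x) * A.N (k + 1) x (A.u x - A.u p)
        ≤ √(P.B * A.D (k + 1) x) * (2 * (C2 * P.r (k + 1))) :=
          mul_le_mul_of_nonneg_left (by linarith) hs
      _ = _ := by ring

theorem mp_wp {x y p : X} (h : Near P A C2 k x y p) :
    mp P A (k + 1) x y (A.u x - A.u p) ≤ K2 C2 * sg P A (k + 1) x y * P.r (k + 1) := by
  have hr := hn.r_pos (k + 1)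
  have hC2 := hn.C2_ge
  have hs := sg_nonneg (P := P) (A := A) (k + 1) x y
  have h1 := mm_wp hn hA h.xp h.Dx
  have h2 := mm_wp hn hA h.yp h.Dy
  have h3 := mp_w hn hA h.xy
  have h4 := sx_le_sg hn hA (k + 1) x y
  have h5 := sy_le_sg hn hA (k + 1) x y
  unfold K2
  refine max_le ?_ ?_
  · have h6 := mul_le_mul_of_nonneg_right (mul_le_mul_of_nonneg_left h4
      (by linarith : (0:ℝ) ≤ 2 * C2)) hr.le
    have := mul_nonneg hs hr.le
    nlinarith
  · have h6 := mul_le_mul_of_nonneg_right (mul_le_mul_of_nonneg_left h5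
      (by linarith : (0:ℝ) ≤ 2 * C2)) hr.le
    have h7 : mm P A (k + 1) y (A.u x - A.u p) ≤
        mm P A (k + 1) y (A.u x - A.u y) + mm P A (k + 1) y (A.u y - A.u p) := by
      have := mm_add (P := P) (A := A) (k + 1) y (A.u x - A.u y) (A.u y - A.u p)
      rwa [sub_add_sub_cancel] at this
    have h8 : mm P A (k + 1) y (A.u x - A.u y) ≤ 2 * sg P A (k + 1) x y * P.r (k + 1) := by
      rw [mm_sub_rev]
      exact (le_max_right _ _).trans h3
    nlinarith

theorem sgN {x y : X} (h : dist x y ≤ P.r (k + 1)) (v : E) :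
    sg P A (k + 1) x y * A.N (k + 1) x v ≤ 2 * mp P A (k + 1) x y v := by
  have hr := hn.r_pos (k + 1)
  have hC0 : dist y x ≤ P.C0 * P.r (k + 1) := by rw [dist_comm]; nlinarith [hn.C0_ge]
  have h1 := sN_le_mm (P := P) (A := A) (k + 1) x v
  have h2 := sN_le_mm (P := P) (A := A) (k + 1) y v
  have h3 := mm_le_mp (P := P) (A := A) (k + 1) x y v
  have h4 := mm_le_mp' (P := P) (A := A) (k + 1) x y v
  have h5 := mp_nonneg (P := P) (A := A) (k + 1) x y v
  unfold sg
  rcases le_total (A.D (k + 1) x) (A.D (k + 1) y) with h' | h'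
  · rw [max_eq_right h']
    have h6 := N_near hn hA (k + 1) hC0 v
    have h7 := mul_le_mul_of_nonneg_left h6 (Real.sqrt_nonneg (P.B * A.D (k + 1) y))
    linarith
  · rw [max_eq_left h']
    linarith

end

end Vale.Agent.P242.PB
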