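import Vale.Agent.P242.H975.Step1

/-!
# P242, PART B: the differentials `J_k(x)`, their inverses, the class of small vectors
-/

open scoped RealInnerProductSpace Topology
open Metric

set_option linter.unusedSectionVars false

noncomputable section

namespace Vale.Agent.P242.PB

section
variable {X : Type*} {E : Type} [MetricSpace X] [NormedAddCommGroup E] [InnerProductSpace ℝ E]
  [FiniteDimensional ℝ E]
variable {P : Par} {A : Data X E} {ρ c C2 θ θ' κ B3 : ℝ} {k : ℕ}

/-- `Θ_p = g_{k+1}(p) - g_k(p) - Δ_k(p)` -/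
def Th (S : St P A κ θ θ' B3 k) (p : X) : Bi E := A.g (k + 1) p - A.g k p - S.Δ p

theorem Th_apply (S : St P A κ θ θ' B3 k) (p : X) (v v' : E) :
    Th S p v v' = A.g (k + 1) p v v' - A.g k p v v' - S.Δ p v v' := rfl

variable (hn : Num P ρ c C2 θ θ') (hA : Hyp P A) (h2 : Num2 P C2 κ θ B3)
  (S : St P A κ θ θ' B3 k)
include hn hA h2

theorem J_sq_aux {R Δ : Bi E} {k : ℕ} {x : X}
    (hΔ : ∀ v, |Δ v v| ≤ θ * mm P A k x v * mm P A k x v)
    (hR : ∀ v, |R v v| ≤ B3 * ∑ j ∈ Finset.range (k + 1), A.D j x * A.N j x v * A.N j x v)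
    (v : E) (s : ℝ) (hs : s = A.g k x v v + R v v + Δ v v) :
    |s - A.N k x v ^ 2| ≤ 1 / 20 * A.N k x v ^ 2 := by
  have h3 := hΔ v
  have h4 := hR v
  have hmm := mm_le hn hA k x v
  have hm0 := mm_nonneg (P := P) (A := A) k x v
  have h5 : θ * mm P A k x v * mm P A k x v ≤ θ * P.ε * A.N k x v ^ 2 := by
    have h6 : mm P A k x v * mm P A k x v ≤ P.ε * A.N k x v ^ 2 := by
      have := mul_le_mul hmm hmm hm0 (by positivity)
      have h7 := Real.mul_self_sqrt hn.hε0.le
      nlinarith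
    have := mul_le_mul_of_nonneg_left h6 hn.hθ0
    nlinarith
  have h6 : B3 * ∑ j ∈ Finset.range (k + 1), A.D j x * A.N j x v * A.N j x v ≤
      2 * B3 * P.δ * A.N k x v ^ 2 := by
    have h7 : ∑ j ∈ Finset.range (k + 1), A.D j x * A.N j x v * A.N j x v ≤
        ∑ j ∈ Finset.range (k + 1), A.D j x * (2 * A.N k x v ^ 2) := by
      refine Finset.sum_le_sum fun j hj => ?_
      have h8 := hA.h7 j k (Nat.lt_succ_iff.1 (Finset.mem_range.1 hj)) x v
      have h9 := mul_le_mul_of_nonneg_left h8 (D_pos hn hA j x).le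
      nlinarith
    rw [← Finset.sum_mul] at h7
    have h8 := mul_le_mul_of_nonneg_right (hA.h6c (k + 1) x)
      (by positivity : (0:ℝ) ≤ 2 * A.N k x v ^ 2)
    have h9 := mul_le_mul_of_nonneg_left (h7.trans h8) h2.hB30
    nlinarith
  have h7 := mul_le_mul_of_nonneg_right h2.hs (sq_nonneg (A.N k x v))
  rw [hA.gN] at hs
  have h8 : s - A.N k x v ^ 2 = R v v + Δ v v := by rw [hs]; ring
  rw [h8]
  have := abs_add_le (R v v) (Δ v v)
  nlinarith

theorem J_sq (x : X) (v : E) :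
    |‖S.J x v‖ ^ 2 - A.N k x v ^ 2| ≤ 1 / 20 * A.N k x v ^ 2 := by
  refine J_sq_aux hn hA h2 (R := S.R x) (Δ := S.Δ x) (fun v => S.I3Δ x v v)
    (fun v => S.I3R x v v) v _ ?_
  rw [← real_inner_self_eq_norm_sq, S.I3]

theorem J_le (x : X) (v : E) : ‖S.J x v‖ ≤ 11 / 10 * A.N k x v := by
  have h := (abs_le.1 (J_sq hn hA h2 S x v)).2
  have h0 := N_nonneg (A := A) k x v
  exact abs_le_of_sq_le_sq' (by nlinarith) (by positivity) |>.2

theorem J_ge (x : X) (v : E) : 97 / 100 * A.N k x v ≤ ‖S.J x v‖ := by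
  have h := (abs_le.1 (J_sq hn hA h2 S x v)).1
  have h0 := N_nonneg (A := A) k x v
  exact abs_le_of_sq_le_sq' (by nlinarith) (norm_nonneg _) |>.2

theorem exists_inv : ∃ Ji : X → E →L[ℝ] E, ∀ x v, S.J x (Ji x v) = v ∧ Ji x (S.J x v) = v := by
  have h : ∀ x, ∃ L : E →L[ℝ] E, ∀ v, S.J x (L v) = v ∧ L (S.J x v) = v := by
    intro x
    have hinj : Function.Injective (S.J x : E →ₗ[ℝ] E) := by
      rw [← LinearMap.ker_eq_bot, LinearMap.ker_eq_bot']
      intro v hv
      by_contra hne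
      have h1 := hA.pos k x v hne
      have h2' := J_ge hn hA h2 S x v
      have h3 : ‖S.J x v‖ = 0 := by
        have : S.J x v = 0 := hv
        rw [this, norm_zero]
      linarith
    let e := LinearEquiv.ofInjectiveEndo (S.J x : E →ₗ[ℝ] E) hinj
    refine ⟨LinearMap.toContinuousLinearMap (e.symm : E →ₗ[ℝ] E), fun v => ⟨?_, ?_⟩⟩
    · exact e.apply_symm_apply v
    · exact e.symm_apply_apply v
  choose L hL using h
  exact ⟨L, hL⟩

/-- a vector `f` is estimated by `J_k(x) f` -/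
theorem mp_small {x y : X} (h : dist x y ≤ P.r (k + 1)) (f : E) :
    mp P A (k + 1) x y f ≤ 5 * ‖S.J x f‖ := by
  have hr := hn.r_pos (k + 1)
  have hC0 : dist x y ≤ P.C0 * P.r (k + 1) := by nlinarith [hn.C0_ge]
  have h1 := N_near hn hA (k + 1) hC0 f
  have h3 := N_succ_le hn hA k x f
  have h4 := J_ge hn hA h2 S x f
  have h5 := sqrtε_le hn hA
  have h6 := mm_le hn hA (k + 1) x f
  have h7 := mm_le hn hA (k + 1) y f
  have h8 := N_nonneg (A := A) (k + 1) x f
  have h9 := N_nonneg (A := A) (k + 1) y f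
  have h10 := mul_le_mul_of_nonneg_right h5 h8
  have h11 := mul_le_mul_of_nonneg_right h5 h9
  refine max_le (by linarith) (by linarith)

theorem mp_small_e {x y : X} (h : dist x y ≤ P.r (k + 1)) (f : E) :
    mp P A (k + 1) x y f ≤ 5 * √P.ε * ‖S.J x f‖ := by
  have hr := hn.r_pos (k + 1)
  have hC0 : dist x y ≤ P.C0 * P.r (k + 1) := by nlinarith [hn.C0_ge]
  have h1 := N_near hn hA (k + 1) hC0 f
  have h3 := N_succ_le hn hA k x f
  have h4 := J_ge hn hA h2 S x f
  have h5 := Real.sqrt_nonneg P.ε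
  have h6 := mm_le hn hA (k + 1) x f
  have h7 := mm_le hn hA (k + 1) y f
  have h8 := norm_nonneg (S.J x f)
  have h9 : A.N (k + 1) x f ≤ 5 * ‖S.J x f‖ := by linarith
  have h9' : A.N (k + 1) y f ≤ 5 * ‖S.J x f‖ := by linarith
  have h10 := mul_le_mul_of_nonneg_left h9 h5
  have h11 := mul_le_mul_of_nonneg_left h9' h5
  refine max_le (by linarith) (by linarith)

/-- a vector `f` is estimated by `J_k(p) f` -/
theorem mp_small' {x y p : X} (h : Near P A C2 k x y p) (f : E) :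
    mp P A (k + 1) x y f ≤ 9 * ‖S.J p f‖ := by
  have hr := hn.r_pos (k + 1)
  have hC0 : dist x y ≤ P.C0 * P.r (k + 1) := by nlinarith [hn.C0_ge, h.xy]
  have hCp : dist p x ≤ P.C0 * P.r (k + 1) := by
    rw [dist_comm]; exact h.xp.trans (mul_le_mul_of_nonneg_right hn.hC20 hr.le)
  have h1 := N_near hn hA (k + 1) hC0 f
  have h1' := N_near hn hA (k + 1) hCp f
  have h3 := N_succ_le hn hA k p f
  have h4 := J_ge hn hA h2 S p f
  have h5 := sqrtε_le hn hA
  have h6 := mm_le hn hA (k + 1) x f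
  have h7 := mm_le hn hA (k + 1) y f
  have h8 := N_nonneg (A := A) (k + 1) x f
  have h9 := N_nonneg (A := A) (k + 1) y f
  have h10 := mul_le_mul_of_nonneg_right h5 h8
  have h11 := mul_le_mul_of_nonneg_right h5 h9
  refine max_le (by linarith) (by linarith)

end

end Vale.Agent.P242.PB
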