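import Vale.Agent.P242.H975.Step2

/-!
# P242, PART B: estimates for three nearby points
-/

open scoped RealInnerProductSpace Topology
open Metric

set_option linter.unusedSectionVars false

noncomputable section

namespace Vale.Agent.P242.PB

/-- `q1 = κ K1 / Λ` -/
def q1 (P : Par) (κ : ℝ) : ℝ := κ * K1 P / P.Λ

/-- `B1 = (B + θ) K1²` -/
def B1 (P : Par) (θ : ℝ) : ℝ := (P.B + θ) * K1 P ^ 2

/-- `θ0` -/
def th0 (P : Par) (C2 θ' : ℝ) : ℝ :=
  P.C1 * C2 + P.C1 * C2 * K1 P ^ 2 / P.Λ + 9 * C2 * θ' * K1 P ^ 2 / P.Λ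

section
variable {X : Type*} {E : Type} [MetricSpace X] [NormedAddCommGroup E] [InnerProductSpace ℝ E]
  [FiniteDimensional ℝ E]
variable {P : Par} {A : Data X E} {ρ c C2 θ θ' κ B3 : ℝ} {k : ℕ}

/-- the class of the right side of (I4) -/
def Cl (P : Par) (A : Data X E) (k : ℕ) (x y : X) (v v' : E) : ℝ :=
  dist x y * mp P A k x y v * mp P A k x y v' +
    mp P A k x y (A.u y - A.u x) * A.N k x v * mp P A k x y v' +
    mp P A k x y (A.u y - A.u x) * A.N k x v' * mp P A k x y v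

theorem Cl_nonneg (k : ℕ) (x y : X) (v v' : E) : 0 ≤ Cl P A k x y v v' := by
  unfold Cl
  have h1 := mp_nonneg (P := P) (A := A) k x y v
  have h2 := mp_nonneg (P := P) (A := A) k x y v'
  have h3 := mp_nonneg (P := P) (A := A) k x y (A.u y - A.u x)
  have h4 := N_nonneg (A := A) k x v
  have h5 := N_nonneg (A := A) k x v'
  have h6 : 0 ≤ dist x y := dist_nonneg
  positivity

variable (hn : Num P ρ c C2 θ θ') (hA : Hyp P A) (h2 : Num2 P C2 κ θ B3)
  (S : St P A κ θ θ' B3 k)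
include hn hA h2

theorem q1_nonneg : 0 ≤ q1 P κ := by
  unfold q1
  have := h2.hκ0
  have := K1_ge hn hA
  have := hn.Λ0
  positivity

theorem q1_le : 9 * q1 P κ * (5 * C2 + 4) ≤ 1 := by
  have h := h2.hη
  have hΛ := hn.Λ0
  unfold q1 K1
  rw [show 9 * (κ * (P.τ * (P.C1 + 6)) / P.Λ) * (5 * C2 + 4) =
    9 * κ * (P.τ * (P.C1 + 6)) * (5 * C2 + 4) / P.Λ by ring, div_le_one hΛ]
  exact h

theorem q1_le' : 36 * q1 P κ ≤ 1 ∧ 45 * C2 * q1 P κ ≤ 1 := by
  have h := q1_le hn hA h2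
  have h0 := q1_nonneg hn hA h2
  have hC := hn.C2_ge
  constructor <;> nlinarith

/-- (I1) in terms of level `k+1` -/
theorem F_diff {x y : X} (h : dist x y ≤ P.r (k + 1)) :
    ‖S.F y - S.F x - S.J x (A.u y - A.u x)‖ ≤
      q1 P κ / P.r (k + 1) * dist x y * mp P A (k + 1) x y (A.u y - A.u x) := by
  have hr := hn.r_pos (k + 1)
  have hr' := hn.r_pos k
  have hle : dist x y ≤ P.r k := by
    have := r_le hn hA k
    have := hn.C2_ge
    nlinarith
  have h1 := S.I1 x y hle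
  have h3 := mp_rel_pair hn hA (k := k) x y (A.u y - A.u x)
  have hd : 0 ≤ dist x y := dist_nonneg
  have hκ := h2.hκ0
  have hM := mp_nonneg (P := P) (A := A) (k + 1) x y (A.u y - A.u x)
  calc _ ≤ κ / P.r k * dist x y * mp P A k x y (A.u y - A.u x) := h1
    _ ≤ κ / P.r k * dist x y * (K1 P * mp P A (k + 1) x y (A.u y - A.u x)) := by gcongr
    _ = _ := by
      unfold q1
      rw [hn.r_succ k]
      have := hn.Λ0
      field_simp

/-- (I2) in terms of level `k+1` -/
theorem J_diff {x y : X} (h : dist x y ≤ P.r (k + 1)) (v : E) :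
    ‖S.J y v - S.J x v‖ ≤ q1 P κ / P.r (k + 1) * (dist x y * mp P A (k + 1) x y v +
      2 * (A.N (k + 1) x v * mp P A (k + 1) x y (A.u y - A.u x))) := by
  have hr := hn.r_pos (k + 1)
  have hr' := hn.r_pos k
  have hle : dist x y ≤ P.r k := by
    have := r_le hn hA k
    have := hn.C2_ge
    nlinarith
  have h1 := S.I2 x y hle v
  have h3 := mp_rel_pair hn hA (k := k) x y (A.u y - A.u x)
  have h4 := mp_rel_pair hn hA (k := k) x y v
  have h5 := N_le_succ hn hA k x v
  have hd : 0 ≤ dist x y := dist_nonneg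
  have hκ := h2.hκ0
  have hK := K1_ge hn hA
  have hM := mp_nonneg (P := P) (A := A) (k + 1) x y (A.u y - A.u x)
  have hMk := mp_nonneg (P := P) (A := A) k x y (A.u y - A.u x)
  have hM' := mp_nonneg (P := P) (A := A) (k + 1) x y v
  have hN := N_nonneg (A := A) k x v
  have hN' := N_nonneg (A := A) (k + 1) x v
  calc _ ≤ κ / P.r k * (dist x y * mp P A k x y v + A.N k x v *
        mp P A k x y (A.u y - A.u x)) := h1
    _ ≤ κ / P.r k * (dist x y * (K1 P * mp P A (k + 1) x y v) + (2 * A.N (k + 1) x v) *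
        (K1 P * mp P A (k + 1) x y (A.u y - A.u x))) := by gcongr
    _ = _ := by
      unfold q1
      rw [hn.r_succ k]
      have := hn.Λ0
      field_simp

theorem near_le {x p : X} (h : dist x p ≤ C2 * P.r (k + 1)) :
    dist x p ≤ P.C0 * P.r (k + 1) ∧ dist x p ≤ P.r k :=
  ⟨h.trans (mul_le_mul_of_nonneg_right hn.hC20 (hn.r_pos _).le), h.trans (r_le hn hA k)⟩

/-- (I1) for `x` and the centre `p` -/
theorem F_diff_p {x p : X} (h : dist x p ≤ C2 * P.r (k + 1))
    (hD : A.D (k + 1) p ≤ 2 * A.D (k + 1) x) :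
    ‖S.F x - S.F p - S.J x (A.u x - A.u p)‖ ≤
      q1 P κ * C2 * mm P A (k + 1) x (A.u x - A.u p) := by
  have hr := hn.r_pos (k + 1)
  have hr' := hn.r_pos k
  obtain ⟨hC0, hle⟩ := near_le hn hA h2 (k := k) h
  have h1 := S.I1 x p hle
  have h3 := mp_rel hn hA (k := k) hC0 hD (A.u p - A.u x)
  have hd : 0 ≤ dist x p := dist_nonneg
  have hκ := h2.hκ0
  have hK := K1_ge hn hA
  have hC2 := hn.C2_ge
  have hM := mm_nonneg (P := P) (A := A) (k + 1) x (A.u p - A.u x)
  have hMk := mp_nonneg (P := P) (A := A) k x p (A.u p - A.u x)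
  have e1 : S.F x - S.F p - S.J x (A.u x - A.u p) =
      -(S.F p - S.F x - S.J x (A.u p - A.u x)) := by
    rw [← neg_sub (A.u x) (A.u p), map_neg]; abel
  rw [e1, norm_neg, mm_sub_rev]
  calc _ ≤ κ / P.r k * dist x p * mp P A k x p (A.u p - A.u x) := h1
    _ ≤ κ / P.r k * (C2 * P.r (k + 1)) * (K1 P * mm P A (k + 1) x (A.u p - A.u x)) := by
      gcongr
    _ = _ := by
      unfold q1
      rw [hn.r_succ k]
      have := hn.Λ0
      field_simp

theorem N_mm_wp {x p : X} (h : dist x p ≤ C2 * P.r (k + 1))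
    (hD : A.D (k + 1) p ≤ 2 * A.D (k + 1) x) (v : E) :
    A.N (k + 1) x v * mm P A (k + 1) x (A.u p - A.u x) ≤
      2 * C2 * P.r (k + 1) * mm P A (k + 1) x v := by
  have h1 := mm_wp hn hA h hD
  have h3 := sN_le_mm (P := P) (A := A) (k + 1) x v
  have hr := hn.r_pos (k + 1)
  have hC2 := hn.C2_ge
  have hN := N_nonneg (A := A) (k + 1) x v
  rw [mm_sub_rev]
  calc _ ≤ A.N (k + 1) x v * (2 * C2 * √(P.B * A.D (k + 1) x) * P.r (k + 1)) := by gcongr
    _ = 2 * C2 * P.r (k + 1) * (√(P.B * A.D (k + 1) x) * A.N (k + 1) x v) := by ring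
    _ ≤ _ := by gcongr

/-- (I2) for `x` and the centre `p` -/
theorem J_diff_p {x p : X} (h : dist x p ≤ C2 * P.r (k + 1))
    (hD : A.D (k + 1) p ≤ 2 * A.D (k + 1) x) (v : E) :
    ‖S.J p v - S.J x v‖ ≤ 5 * C2 * q1 P κ * mm P A (k + 1) x v := by
  have hr := hn.r_pos (k + 1)
  have hr' := hn.r_pos k
  obtain ⟨hC0, hle⟩ := near_le hn hA h2 (k := k) h
  have h1 := S.I2 x p hle v
  have h3 := mp_rel hn hA (k := k) hC0 hD (A.u p - A.u x)
  have h4 := mp_rel hn hA (k := k) hC0 hD v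
  have h5 := N_le_succ hn hA k x v
  have hw := N_mm_wp hn hA h2 (k := k) h hD v
  have hd : 0 ≤ dist x p := dist_nonneg
  have hκ := h2.hκ0
  have hK := K1_ge hn hA
  have hC2 := hn.C2_ge
  have hM := mm_nonneg (P := P) (A := A) (k + 1) x (A.u p - A.u x)
  have hMk := mp_nonneg (P := P) (A := A) k x p (A.u p - A.u x)
  have hMk' := mp_nonneg (P := P) (A := A) k x p v
  have hM' := mm_nonneg (P := P) (A := A) (k + 1) x v
  have hN' := N_nonneg (A := A) (k + 1) x v
  have hN := N_nonneg (A := A) k x v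
  calc _ ≤ κ / P.r k * (dist x p * mp P A k x p v + A.N k x v *
        mp P A k x p (A.u p - A.u x)) := h1
    _ ≤ κ / P.r k * ((C2 * P.r (k + 1)) * (K1 P * mm P A (k + 1) x v) + (2 * A.N (k + 1) x v) *
        (K1 P * mm P A (k + 1) x (A.u p - A.u x))) := by gcongr
    _ = κ / P.r k * K1 P * (C2 * P.r (k + 1) * mm P A (k + 1) x v +
        2 * (A.N (k + 1) x v * mm P A (k + 1) x (A.u p - A.u x))) := by ring
    _ ≤ κ / P.r k * K1 P * (C2 * P.r (k + 1) * mm P A (k + 1) x v +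
        2 * (2 * C2 * P.r (k + 1) * mm P A (k + 1) x v)) := by gcongr
    _ = _ := by
      unfold q1
      rw [hn.r_succ k]
      have := hn.Λ0
      field_simp
      ring

section inv
variable {Ji : X → E →L[ℝ] E} (hJ : ∀ x v, S.J x (Ji x v) = v ∧ Ji x (S.J x v) = v)
include hJ

/-- (N1) -/
theorem N1 {x y p : X} (h : Near P A C2 k x y p) :
    mp P A (k + 1) x y (Ji x (S.F x - S.F p)) ≤
      2 * K2 C2 * sg P A (k + 1) x y * P.r (k + 1) := by
  have h1 := F_diff_p hn hA h2 S h.xp h.Dx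
  have h3 := mp_small hn hA h2 S h.xy (Ji x (S.F x - S.F p) - (A.u x - A.u p))
  rw [map_sub (S.J x), (hJ x _).1] at h3
  have h4 := mp_wp hn hA h
  have h5 := mm_le_mp (P := P) (A := A) (k + 1) x y (A.u x - A.u p)
  have h6 := mp_add (P := P) (A := A) (k + 1) x y (Ji x (S.F x - S.F p) - (A.u x - A.u p))
    (A.u x - A.u p)
  rw [sub_add_cancel] at h6
  have h7 := (q1_le' hn hA h2).2
  have h8 := mm_nonneg (P := P) (A := A) (k + 1) x (A.u x - A.u p)
  have h9 := mul_le_mul_of_nonneg_right h7 h8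
  nlinarith

/-- (N2) -/
theorem N2 {x y : X} (h : dist x y ≤ P.r (k + 1)) :
    mp P A (k + 1) x y (Ji x (S.F y - S.F x)) ≤
      2 * mp P A (k + 1) x y (A.u y - A.u x) := by
  have h1 := F_diff hn hA h2 S h
  have h3 := mp_small hn hA h2 S h (Ji x (S.F y - S.F x) - (A.u y - A.u x))
  rw [map_sub (S.J x), (hJ x _).1] at h3
  have h6 := mp_add (P := P) (A := A) (k + 1) x y (Ji x (S.F y - S.F x) - (A.u y - A.u x))
    (A.u y - A.u x)
  rw [sub_add_cancel] at h6
  have h7 := (q1_le' hn hA h2).1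
  have h8 := mp_nonneg (P := P) (A := A) (k + 1) x y (A.u y - A.u x)
  have hr := hn.r_pos (k + 1)
  have h9 : q1 P κ / P.r (k + 1) * dist x y * mp P A (k + 1) x y (A.u y - A.u x) ≤
      1 / 36 * mp P A (k + 1) x y (A.u y - A.u x) := by
    refine mul_le_mul_of_nonneg_right ?_ h8
    rw [div_mul_eq_mul_div, div_le_iff₀ hr]
    have h0 := q1_nonneg hn hA h2
    have hd : 0 ≤ dist x y := dist_nonneg
    have := mul_le_mul_of_nonneg_left h h0
    nlinarith
  linarith

/-- (N3) -/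
theorem N3 {x y p : X} (h : Near P A C2 k x y p) :
    mp P A (k + 1) x y (Ji x (S.F y - S.F p)) ≤
      3 * K2 C2 * sg P A (k + 1) x y * P.r (k + 1) := by
  have h1 := N1 hn hA h2 S hJ h
  have h3 := N2 hn hA h2 S hJ h.xy
  have h4 := mp_w hn hA h.xy
  have h5 := mp_add (P := P) (A := A) (k + 1) x y (Ji x (S.F y - S.F x)) (Ji x (S.F x - S.F p))
  rw [← map_add, sub_add_sub_cancel] at h5
  have hs := mul_nonneg (sg_nonneg (P := P) (A := A) (k + 1) x y) (hn.r_pos (k + 1)).le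
  have hK : 22 ≤ K2 C2 := by
    have := hn.C2_ge
    unfold K2; linarith
  nlinarith

/-- (N4) -/
theorem N4 {x y p : X} (h : Near P A C2 k x y p) (v : E) :
    mp P A (k + 1) x y (Ji p (S.J x v) - v) ≤ 45 * C2 * q1 P κ * mp P A (k + 1) x y v := by
  have h1 := J_diff_p hn hA h2 S h.xp h.Dx v
  have h3 := mp_small' hn hA h2 S h (Ji p (S.J x v) - v)
  rw [map_sub, (hJ p _).1, norm_sub_rev] at h3
  have h4 := mm_le_mp (P := P) (A := A) (k + 1) x y v
  have h0 := q1_nonneg hn hA h2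
  have hC := hn.C2_ge
  have h5 : 5 * C2 * q1 P κ * mm P A (k + 1) x v ≤ 5 * C2 * q1 P κ * mp P A (k + 1) x y v := by
    gcongr
  linarith

theorem N4' {x y p : X} (h : Near P A C2 k x y p) (v : E) :
    mp P A (k + 1) x y (Ji p (S.J x v)) ≤ 2 * mp P A (k + 1) x y v := by
  have h1 := N4 hn hA h2 S hJ h v
  have h3 := mp_add (P := P) (A := A) (k + 1) x y (Ji p (S.J x v) - v) v
  rw [sub_add_cancel] at h3
  have h4 := mul_le_mul_of_nonneg_right (q1_le' hn hA h2).2
    (mp_nonneg (P := P) (A := A) (k + 1) x y v)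
  linarith

theorem N4'' {x y p : X} (h : Near P A C2 k x y p) (v : E) :
    mp P A (k + 1) x y (Ji p (S.J y v)) ≤ 2 * mp P A (k + 1) x y v := by
  rw [mp_comm, mp_comm (v := v)]
  exact N4' hn hA h2 S hJ h.swap v

end inv

/-- (N5) -/
theorem N5 {x p : X} (h : dist x p ≤ C2 * P.r (k + 1))
    (hD : A.D (k + 1) p ≤ 2 * A.D (k + 1) x) (v v' : E) :
    |Th S p v v'| ≤ B1 P θ * mm P A (k + 1) x v * mm P A (k + 1) x v' := by
  obtain ⟨hC0, hle⟩ := near_le hn hA h2 (k := k) h
  have h1 := hA.h2 k p v v'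
  have h3 := S.I3Δ p v v'
  have h4 := mm_rel hn hA hC0 hD v
  have h5 := mm_rel hn hA hC0 hD v'
  have h6 := nn_le_mm (P := P) (A := A) k p v
  have h7 := nn_le_mm (P := P) (A := A) k p v'
  have h8 := nn_nonneg (A := A) k p v'
  have h9 := mm_nonneg (P := P) (A := A) k p v
  have h10 := mm_nonneg (P := P) (A := A) k p v'
  have h11 := mm_nonneg (P := P) (A := A) (k + 1) x v
  have h12 := mm_nonneg (P := P) (A := A) (k + 1) x v'
  have hB := hn.hB
  have hθ := hn.hθ0
  have hK := K1_ge hn hA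
  rw [Th_apply]
  have h13 : |A.g (k + 1) p v v' - A.g k p v v' - S.Δ p v v'| ≤
      P.B * A.nn k p v * A.nn k p v' + θ * mm P A k p v * mm P A k p v' :=
    (abs_sub _ _).trans (add_le_add h1 h3)
  calc _ ≤ P.B * A.nn k p v * A.nn k p v' + θ * mm P A k p v * mm P A k p v' := h13
    _ ≤ P.B * (K1 P * mm P A (k + 1) x v) * (K1 P * mm P A (k + 1) x v') +
        θ * (K1 P * mm P A (k + 1) x v) * (K1 P * mm P A (k + 1) x v') := by
      have h14 := h6.trans h4
      have h15 := h7.trans h5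
      gcongr
    _ = _ := by unfold B1; ring

theorem B1_nonneg : 0 ≤ B1 P θ := by
  unfold B1
  have := hn.hB
  have := hn.hθ0
  positivity

theorem N5' {x y p : X} (h : Near P A C2 k x y p) (v v' : E) :
    |Th S p v v'| ≤ B1 P θ * mp P A (k + 1) x y v * mp P A (k + 1) x y v' := by
  refine (N5 hn hA h2 S h.xp h.Dx v v').trans ?_
  have h1 := mm_le_mp (P := P) (A := A) (k + 1) x y v
  have h3 := mm_le_mp (P := P) (A := A) (k + 1) x y v'
  have h4 := B1_nonneg hn hA h2
  have h5 := mm_nonneg (P := P) (A := A) (k + 1) x v'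
  have h6 := mp_nonneg (P := P) (A := A) (k + 1) x y v
  gcongr

/-- (N7) -/
theorem N7 {x p : X} (h : dist x p ≤ C2 * P.r (k + 1))
    (hD : A.D (k + 1) p ≤ 2 * A.D (k + 1) x) (v v' : E) :
    |Th S x v v' - Th S p v v'| ≤
      th0 P C2 θ' * mm P A (k + 1) x v * mm P A (k + 1) x v' := by
  obtain ⟨hC0, hle⟩ := near_le hn hA h2 (k := k) h
  have hr := hn.r_pos (k + 1)
  have hr' := hn.r_pos k
  have hC0' : dist x p ≤ P.C0 * P.r k := by
    have := hn.C0_ge
    nlinarith [hle]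
  have h1 := hA.h3 (k + 1) x p hC0 v v'
  have h3 := hA.h3 k x p hC0' v v'
  have h4 := S.I4 x p hle v v'
  have hC2 := hn.C2_ge
  have hC1 := hn.hC1
  have hK := K1_ge hn hA
  have hθ' := hn.hθ'0
  have hΛ := hn.Λ0
  have hd : 0 ≤ dist x p := dist_nonneg
  set m := mm P A (k + 1) x v with hm
  set m' := mm P A (k + 1) x v' with hm'
  have hm0 : 0 ≤ m := mm_nonneg _ _ _
  have hm0' : 0 ≤ m' := mm_nonneg _ _ _
  have a1 : |A.g (k + 1) x v v' - A.g (k + 1) p v v'| ≤ P.C1 * C2 * m * m' := by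
    refine h1.trans ?_
    have h5 : dist x p / P.r (k + 1) ≤ C2 := (div_le_iff₀ hr).2 h
    have h6 := nn_le_mm (P := P) (A := A) (k + 1) x v
    have h7 := nn_le_mm (P := P) (A := A) (k + 1) x v'
    have h8 := nn_nonneg (A := A) (k + 1) x v'
    have h9 := nn_nonneg (A := A) (k + 1) x v
    gcongr
  have a2 : |A.g k x v v' - A.g k p v v'| ≤ P.C1 * C2 * K1 P ^ 2 / P.Λ * m * m' := by
    refine h3.trans ?_
    have h5 : dist x p / P.r k ≤ C2 / P.Λ := by
      rw [div_le_iff₀ hr', hn.r_succ k]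
      rw [show C2 / P.Λ * (P.Λ * P.r (k + 1)) = C2 * P.r (k + 1) by field_simp]
      exact h
    have h6 := (nn_le_mm (P := P) (A := A) k x v).trans (mm_rel_self hn hA x v)
    have h7 := (nn_le_mm (P := P) (A := A) k x v').trans (mm_rel_self hn hA x v')
    have h8 := nn_nonneg (A := A) k x v'
    have h9 := nn_nonneg (A := A) k x v
    calc _ ≤ P.C1 * (C2 / P.Λ) * (K1 P * m) * (K1 P * m') := by gcongr
      _ = _ := by ring
  have a3 : |S.Δ x v v' - S.Δ p v v'| ≤ 9 * C2 * θ' * K1 P ^ 2 / P.Λ * m * m' := by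
    refine h4.trans ?_
    have b1 := mp_rel hn hA (k := k) hC0 hD (A.u p - A.u x)
    have b2 := mp_rel hn hA (k := k) hC0 hD v
    have b3 := mp_rel hn hA (k := k) hC0 hD v'
    have b4 := N_le_succ hn hA k x v
    have b5 := N_le_succ hn hA k x v'
    have c1 := mp_nonneg (P := P) (A := A) k x p (A.u p - A.u x)
    have c2 := mp_nonneg (P := P) (A := A) k x p v
    have c3 := mp_nonneg (P := P) (A := A) k x p v'
    have c4 := N_nonneg (A := A) k x v
    have c5 := N_nonneg (A := A) k x v'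
    have d1 := N_mm_wp hn hA h2 (k := k) h hD v
    have d2 := N_mm_wp hn hA h2 (k := k) h hD v'
    have e1 := N_nonneg (A := A) (k + 1) x v
    have e2 := N_nonneg (A := A) (k + 1) x v'
    have e3 := mm_nonneg (P := P) (A := A) (k + 1) x (A.u p - A.u x)
    rw [← hm] at b2 d1
    rw [← hm'] at b3 d2
    set W := mm P A (k + 1) x (A.u p - A.u x)
    calc θ' / P.r k * (dist x p * mp P A k x p v * mp P A k x p v' +
          mp P A k x p (A.u p - A.u x) * A.N k x v * mp P A k x p v' +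
          mp P A k x p (A.u p - A.u x) * A.N k x v' * mp P A k x p v)
        ≤ θ' / P.r k * ((C2 * P.r (k + 1)) * (K1 P * m) * (K1 P * m') +
          (K1 P * W) * (2 * A.N (k + 1) x v) * (K1 P * m') +
          (K1 P * W) * (2 * A.N (k + 1) x v') * (K1 P * m)) := by gcongr
      _ = θ' / P.r k * K1 P ^ 2 * (C2 * P.r (k + 1) * m * m' +
          2 * (A.N (k + 1) x v * W) * m' + 2 * (A.N (k + 1) x v' * W) * m) := by ring
      _ ≤ θ' / P.r k * K1 P ^ 2 * (C2 * P.r (k + 1) * m * m' +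
          2 * (2 * C2 * P.r (k + 1) * m) * m' + 2 * (2 * C2 * P.r (k + 1) * m') * m) := by
        gcongr
      _ = _ := by
        rw [hn.r_succ k]
        field_simp
        ring
  rw [Th_apply, Th_apply]
  have e : A.g (k + 1) x v v' - A.g k x v v' - S.Δ x v v' -
      (A.g (k + 1) p v v' - A.g k p v v' - S.Δ p v v') =
      (A.g (k + 1) x v v' - A.g (k + 1) p v v') - (A.g k x v v' - A.g k p v v') -
        (S.Δ x v v' - S.Δ p v v') := by ring
  rw [e]
  have f1 := abs_sub (A.g (k + 1) x v v' - A.g (k + 1) p v v') (A.g k x v v' - A.g k p v v')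
  have f2 := abs_sub ((A.g (k + 1) x v v' - A.g (k + 1) p v v') - (A.g k x v v' - A.g k p v v'))
    (S.Δ x v v' - S.Δ p v v')
  unfold th0
  have f3 : (P.C1 * C2 + P.C1 * C2 * K1 P ^ 2 / P.Λ + 9 * C2 * θ' * K1 P ^ 2 / P.Λ) * m * m' =
    P.C1 * C2 * m * m' + P.C1 * C2 * K1 P ^ 2 / P.Λ * m * m' +
      9 * C2 * θ' * K1 P ^ 2 / P.Λ * m * m' := by ring
  rw [f3]
  linarith

/-- (N8) -/
theorem N8 {x y : X} (h : dist x y ≤ P.r (k + 1)) (v v' : E) :
    |Th S x v v' - Th S y v v'| ≤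
      (P.C1 + P.C1 * K1 P ^ 2 / P.Λ + 2 * θ' * K1 P ^ 2 / P.Λ) / P.r (k + 1) *
        Cl P A (k + 1) x y v v' := by
  have hr := hn.r_pos (k + 1)
  have hr' := hn.r_pos k
  have hC2 := hn.C2_ge
  have hle : dist x y ≤ P.r k := by
    have := r_le hn hA k
    nlinarith
  have hC0 : dist x y ≤ P.C0 * P.r (k + 1) := by nlinarith [hn.C0_ge]
  have hC0' : dist x y ≤ P.C0 * P.r k := by
    have := hn.C0_ge
    nlinarith [hle]
  have h1 := hA.h3 (k + 1) x y hC0 v v'
  have h3 := hA.h3 k x y hC0' v v'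
  have h4 := S.I4 x y hle v v'
  have hC1 := hn.hC1
  have hK := K1_ge hn hA
  have hθ' := hn.hθ'0
  have hΛ := hn.Λ0
  have hd : 0 ≤ dist x y := dist_nonneg
  unfold Cl
  set m := mp P A (k + 1) x y v with hm
  set m' := mp P A (k + 1) x y v' with hm'
  set W := mp P A (k + 1) x y (A.u y - A.u x) with hW
  have hm0 : 0 ≤ m := mp_nonneg _ _ _ _
  have hm0' : 0 ≤ m' := mp_nonneg _ _ _ _
  have hW0 : 0 ≤ W := mp_nonneg _ _ _ _
  have e1 := N_nonneg (A := A) (k + 1) x v
  have e2 := N_nonneg (A := A) (k + 1) x v'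
  have a1 : |A.g (k + 1) x v v' - A.g (k + 1) y v v'| ≤
      P.C1 / P.r (k + 1) * (dist x y * m * m') := by
    refine h1.trans ?_
    have h6 := (nn_le_mm (P := P) (A := A) (k + 1) x v).trans
      (mm_le_mp (P := P) (A := A) (k + 1) x y v)
    have h7 := (nn_le_mm (P := P) (A := A) (k + 1) x v').trans
      (mm_le_mp (P := P) (A := A) (k + 1) x y v')
    have h8 := nn_nonneg (A := A) (k + 1) x v'
    have h9 := nn_nonneg (A := A) (k + 1) x v
    calc _ ≤ P.C1 * (dist x y / P.r (k + 1)) * m * m' := by gcongr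
      _ = _ := by ring
  have a2 : |A.g k x v v' - A.g k y v v'| ≤
      P.C1 * K1 P ^ 2 / P.Λ / P.r (k + 1) * (dist x y * m * m') := by
    refine h3.trans ?_
    have h6 := ((nn_le_mm (P := P) (A := A) k x v).trans
      (mm_le_mp (P := P) (A := A) k x y v)).trans (mp_rel_pair hn hA x y v)
    have h7 := ((nn_le_mm (P := P) (A := A) k x v').trans
      (mm_le_mp (P := P) (A := A) k x y v')).trans (mp_rel_pair hn hA x y v')
    have h8 := nn_nonneg (A := A) k x v'
    have h9 := nn_nonneg (A := A) k x v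
    calc _ ≤ P.C1 * (dist x y / P.r k) * (K1 P * m) * (K1 P * m') := by gcongr
      _ = _ := by
        rw [hn.r_succ k]
        field_simp
  have a3 : |S.Δ x v v' - S.Δ y v v'| ≤ 2 * θ' * K1 P ^ 2 / P.Λ / P.r (k + 1) *
      (dist x y * m * m' + W * A.N (k + 1) x v * m' + W * A.N (k + 1) x v' * m) := by
    refine h4.trans ?_
    have b1 := mp_rel_pair hn hA (k := k) x y (A.u y - A.u x)
    have b2 := mp_rel_pair hn hA (k := k) x y v
    have b3 := mp_rel_pair hn hA (k := k) x y v'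
    have b4 := N_le_succ hn hA k x v
    have b5 := N_le_succ hn hA k x v'
    have c1 := mp_nonneg (P := P) (A := A) k x y (A.u y - A.u x)
    have c2 := mp_nonneg (P := P) (A := A) k x y v
    have c3 := mp_nonneg (P := P) (A := A) k x y v'
    have c4 := N_nonneg (A := A) k x v
    have c5 := N_nonneg (A := A) k x v'
    rw [← hm] at b2
    rw [← hm'] at b3
    rw [← hW] at b1
    calc θ' / P.r k * (dist x y * mp P A k x y v * mp P A k x y v' +
          mp P A k x y (A.u y - A.u x) * A.N k x v * mp P A k x y v' +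
          mp P A k x y (A.u y - A.u x) * A.N k x v' * mp P A k x y v)
        ≤ θ' / P.r k * (dist x y * (K1 P * m) * (K1 P * m') +
          (K1 P * W) * (2 * A.N (k + 1) x v) * (K1 P * m') +
          (K1 P * W) * (2 * A.N (k + 1) x v') * (K1 P * m)) := by gcongr
      _ ≤ θ' / P.r k * (2 * K1 P ^ 2 * (dist x y * m * m' + W * A.N (k + 1) x v * m' +
          W * A.N (k + 1) x v' * m)) := by
        refine mul_le_mul_of_nonneg_left ?_ (by positivity)
        have : 0 ≤ K1 P ^ 2 * (dist x y * m * m') := by positivity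
        nlinarith
      _ = _ := by
        rw [hn.r_succ k]
        field_simp
  rw [Th_apply, Th_apply]
  have e : A.g (k + 1) x v v' - A.g k x v v' - S.Δ x v v' -
      (A.g (k + 1) y v v' - A.g k y v v' - S.Δ y v v') =
      (A.g (k + 1) x v v' - A.g (k + 1) y v v') - (A.g k x v v' - A.g k y v v') -
        (S.Δ x v v' - S.Δ y v v') := by ring
  rw [e]
  have f1 := abs_sub (A.g (k + 1) x v v' - A.g (k + 1) y v v') (A.g k x v v' - A.g k y v v')
  have f2 := abs_sub ((A.g (k + 1) x v v' - A.g (k + 1) y v v') - (A.g k x v v' - A.g k y v v'))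
    (S.Δ x v v' - S.Δ y v v')
  set Q := dist x y * m * m' + W * A.N (k + 1) x v * m' + W * A.N (k + 1) x v' * m with hQ
  have hQ1 : dist x y * m * m' ≤ Q := by
    rw [hQ]
    have : 0 ≤ W * A.N (k + 1) x v * m' := by positivity
    have : 0 ≤ W * A.N (k + 1) x v' * m := by positivity
    linarith
  have g1 : P.C1 / P.r (k + 1) * (dist x y * m * m') ≤ P.C1 / P.r (k + 1) * Q := by gcongr
  have g2 : P.C1 * K1 P ^ 2 / P.Λ / P.r (k + 1) * (dist x y * m * m') ≤
    P.C1 * K1 P ^ 2 / P.Λ / P.r (k + 1) * Q := by gcongr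
  have g3 : (P.C1 + P.C1 * K1 P ^ 2 / P.Λ + 2 * θ' * K1 P ^ 2 / P.Λ) / P.r (k + 1) * Q =
    P.C1 / P.r (k + 1) * Q + P.C1 * K1 P ^ 2 / P.Λ / P.r (k + 1) * Q +
      2 * θ' * K1 P ^ 2 / P.Λ / P.r (k + 1) * Q := by ring
  rw [g3]
  linarith

end

end Vale.Agent.P242.PB
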