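import Vale.Agent.P242.H975.Step3
import Mathlib.Analysis.InnerProductSpace.Dual

/-!
# P242, PART B: operators, centres, the gluing map
-/

open scoped RealInnerProductSpace Topology
open Metric

set_option linter.unusedSectionVars false

noncomputable section

namespace Vale.Agent.P242.PB

section op
variable {E : Type} [NormedAddCommGroup E] [InnerProductSpace ℝ E] [FiniteDimensional ℝ E]

theorem exists_op (B : Bi E) (L : E →L[ℝ] E) : ∃ Z : E →L[ℝ] E,
    ∀ ξ ξ', ⟪Z ξ, ξ'⟫ = 1 / 2 * B (L ξ) (L ξ') := by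
  let f : E →ₗ[ℝ] E :=
    { toFun := fun ξ => (InnerProductSpace.toDual ℝ E).symm ((1 / 2 : ℝ) • (B (L ξ)).comp L)
      map_add' := by
        intro ξ η
        rw [← map_add]
        congr 1
        ext w
        simp
      map_smul' := by
        intro t ξ
        have h : (1 / 2 : ℝ) • (B (L (t • ξ))).comp L = t • ((1 / 2 : ℝ) • (B (L ξ)).comp L) := by
          ext w
          simp
          ring
        rw [h, map_smulₛₗ]
        simp }
  refine ⟨LinearMap.toContinuousLinearMap f, fun ξ ξ' => ?_⟩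
  show ⟪(InnerProductSpace.toDual ℝ E).symm ((1 / 2 : ℝ) • (B (L ξ)).comp L), ξ'⟫ = _
  rw [InnerProductSpace.toDual_symm_apply]
  rfl

/-- the inner product as a bilinear form -/
def ipB (E : Type) [NormedAddCommGroup E] [InnerProductSpace ℝ E] : Bi E :=
  (isBoundedBilinearMap_inner (𝕜 := ℝ) (E := E)).toContinuousLinearMap

theorem ipB_apply (v w : E) : ipB E v w = ⟪v, w⟫ := rfl

end op

/-- `γ = c K² β e` with `K = 15 K2`, `β = 2 B1`, `e = 5 √ε` -/
def gam (P : Par) (c C2 θ : ℝ) : ℝ := c * (15 * K2 C2) ^ 2 * (2 * B1 P θ) * (5 * √P.ε)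

/-- `θ1` -/
def th1 (P : Par) (C2 θ θ' κ : ℝ) : ℝ := th0 P C2 θ' + 135 * B1 P θ * C2 * q1 P κ

/-- the conditions which close the induction -/
structure Num3 (P : Par) (c C2 κ θ θ' B3 : ℝ) : Prop where
  hγ : gam P c C2 θ ≤ 1 / 20
  hκγ : 12 * gam P c C2 θ ≤ κ
  hκ : κ ≤ 1 / 100
  hB3 : c * (15 * K2 C2) ^ 2 * (2 * B1 P θ) * P.B ≤ B3
  hθ : th1 P C2 θ θ' κ + gam P c C2 θ ^ 2 ≤ θ
  hθ' : 6 * c ^ 2 * th1 P C2 θ θ' κ + (P.C1 + P.C1 * K1 P ^ 2 / P.Λ + 2 * θ' * K1 P ^ 2 / P.Λ) +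
    36 * B1 P θ * q1 P κ + 10 * gam P c C2 θ ^ 2 ≤ θ'

section
variable {X : Type*} {E : Type} [MetricSpace X] [NormedAddCommGroup E] [InnerProductSpace ℝ E]
  [FiniteDimensional ℝ E]
variable {P : Par} {A : Data X E} {ρ c C2 θ θ' κ B3 : ℝ} {k : ℕ}

variable (hn : Num P ρ c C2 θ θ') (hA : Hyp P A) (h2 : Num2 P C2 κ θ B3)
  (S : St P A κ θ θ' B3 k)
include hn hA h2

theorem F_le {x y : X} (h : dist x y ≤ P.r (k + 1)) : ‖S.F y - S.F x‖ ≤ 3 * dist x y := by
  have hr := hn.r_pos (k + 1)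
  have h1 := F_diff hn hA h2 S h
  have h3 := J_le hn hA h2 S x (A.u y - A.u x)
  have hle : dist x y ≤ P.C0 * P.r k := by
    have h4 := r_le hn hA k
    have := hn.C2_ge
    have h5 := hn.C0_ge
    have h6 := hn.r_pos k
    nlinarith
  have h4 := hA.h1b k x y hle
  rw [map_sub_rev] at h4
  have h5 := mp_w hn hA h
  have h6 := sg_le hn hA (k + 1) x y
  have h7 := sqrtε_le hn hA
  have h8 := (q1_le' hn hA h2).1
  have h0 := q1_nonneg hn hA h2
  have hd : 0 ≤ dist x y := dist_nonneg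
  have hM := mp_nonneg (P := P) (A := A) (k + 1) x y (A.u y - A.u x)
  have h9 : q1 P κ / P.r (k + 1) * dist x y * mp P A (k + 1) x y (A.u y - A.u x) ≤
      1 / 18 * dist x y := by
    have h10 : mp P A (k + 1) x y (A.u y - A.u x) ≤ 2 * P.r (k + 1) := by
      have : 2 * sg P A (k + 1) x y * P.r (k + 1) ≤ 2 * 1 * P.r (k + 1) := by
        have := h6.trans h7
        gcongr
      linarith
    calc _ ≤ q1 P κ / P.r (k + 1) * dist x y * (2 * P.r (k + 1)) := by gcongr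
      _ = 2 * q1 P κ * dist x y := by field_simp
      _ ≤ _ := by nlinarith
  have h10 := norm_add_le (S.F y - S.F x - S.J x (A.u y - A.u x)) (S.J x (A.u y - A.u x))
  rw [sub_add_cancel] at h10
  linarith

theorem gam_nonneg : 0 ≤ gam P c C2 θ := by
  unfold gam
  have := B1_nonneg hn hA h2
  have := hn.hc1
  have := Real.sqrt_nonneg P.ε
  positivity

theorem th1_nonneg : 0 ≤ th1 P C2 θ θ' κ := by
  unfold th1 th0
  have := B1_nonneg hn hA h2
  have := q1_nonneg hn hA h2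
  have := hn.C2_ge
  have := hn.hC1
  have := hn.hθ'0
  have := hn.Λ0
  positivity

/-- points with the same label are near -/
theorem dist_le_of_F {x p : X} {b : E}
    (hx : ‖S.F x - b‖ ≤ (ρ + 4) * P.r (k + 1)) (hp : ‖S.F p - b‖ ≤ (ρ + 4) * P.r (k + 1)) :
    dist x p ≤ C2 * P.r (k + 1) := by
  have hr := hn.r_pos (k + 1)
  rcases le_total (P.r (k + 1)) (dist x p) with h | h
  · have h1 := S.I5 x p h
    have h3 : ‖S.F x - S.F p‖ ≤ 2 * (ρ + 4) * P.r (k + 1) := by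
      have := norm_sub_le (S.F x - b) (S.F p - b)
      rw [sub_sub_sub_cancel_right] at this
      linarith
    have h4 := mul_le_mul_of_nonneg_right hn.hC2 hr.le
    nlinarith
  · have := hn.C2_ge
    nlinarith

/-- choice of the centres -/
theorem exists_centres [Nonempty X] {ι : Type} (pt : ι → E) (R : ℝ) : ∃ p : ι → X,
    ∀ a, ∀ x, ‖S.F x - pt a‖ ≤ R → ‖S.F (p a) - pt a‖ ≤ R ∧
      A.D (k + 1) (p a) ≤ 2 * A.D (k + 1) x := by
  have h : ∀ a, ∃ p : X, ∀ x, ‖S.F x - pt a‖ ≤ R → ‖S.F p - pt a‖ ≤ R ∧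
      A.D (k + 1) p ≤ 2 * A.D (k + 1) x := by
    intro a
    by_cases hne : ∃ x, ‖S.F x - pt a‖ ≤ R
    · obtain ⟨x₀, hx₀⟩ := hne
      obtain ⟨d, hd, hdD⟩ := hA.h6a (k + 1)
      let s : Set ℝ := {t | ∃ x, ‖S.F x - pt a‖ ≤ R ∧ A.D (k + 1) x = t}
      have hs : s.Nonempty := ⟨_, x₀, hx₀, rfl⟩
      have hb : BddBelow s := ⟨d, by rintro t ⟨x, -, rfl⟩; exact hdD x⟩
      have h1 : d ≤ sInf s := le_csInf hs (by rintro t ⟨x, -, rfl⟩; exact hdD x)
      obtain ⟨t, ⟨p, hp, rfl⟩, ht⟩ := exists_lt_of_csInf_lt hs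
        (show sInf s < 2 * sInf s by linarith)
      refine ⟨p, fun x hx => ⟨hp, ?_⟩⟩
      have h3 : sInf s ≤ A.D (k + 1) x := csInf_le hb ⟨x, hx, rfl⟩
      linarith
    · exact ⟨Classical.arbitrary X, fun x hx => (hne ⟨x, hx⟩).elim⟩
  choose p hp using h
  exact ⟨p, hp⟩

end

end Vale.Agent.P242.PB
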