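import Vale.Agent.P242.H975.Step4

/-!
# P242, PART B: the gluing map at level `k`
-/

open scoped RealInnerProductSpace Topology
open Metric

set_option linter.unusedSectionVars false

noncomputable section

namespace Vale.Agent.P242.PB

section
variable {X : Type*} {E : Type} [MetricSpace X] [NormedAddCommGroup E] [InnerProductSpace ℝ E]
  [FiniteDimensional ℝ E]
variable {P : Par} {A : Data X E} {ρ c C2 θ θ' κ B3 : ℝ} {k : ℕ}

/-- everything the step needs about the gluing map -/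
structure Gl (c C2 : ℝ) (S : St P A κ θ θ' B3 k) (Ji : X → E →L[ℝ] E) where
  ι : Type
  p : ι → X
  χ : ι → E → ℝ
  rel : E → Finset ι
  Ψ : E → E
  T : E → E →L[ℝ] E
  Q : E → E →L[ℝ] E
  card : ∀ z, ((rel z).card : ℝ) ≤ c
  χ0 : ∀ a z, 0 ≤ χ a z
  χrel : ∀ a z, a ∉ rel z → χ a z = 0
  χsum : ∀ z (s : Finset ι), rel z ⊆ s → ∑ a ∈ s, χ a z = 1
  χlip : ∀ a z z', |χ a z - χ a z'| ≤ c / P.r (k + 1) * ‖z - z'‖
  near : ∀ x y, dist x y ≤ P.r (k + 1) → ∀ a ∈ rel (S.F x), Near P A C2 k x y (p a)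
  ident : ∀ x v v', ⟪S.J x v + T (S.F x) (S.J x v), S.J x v' + T (S.F x) (S.J x v')⟫ =
    ⟪S.J x v, S.J x v'⟫ + ∑ a ∈ rel (S.F x), χ a (S.F x) *
      Th S (p a) (Ji (p a) (S.J x v)) (Ji (p a) (S.J x v')) +
    2 * ⟪Q (S.F x) (S.J x v), S.J x v'⟫ + ⟪T (S.F x) (S.J x v), T (S.F x) (S.J x v')⟫
  E1 : ∀ x y, dist x y ≤ P.r (k + 1) → ∀ ξ,
    ‖T (S.F x) ξ‖ ≤ gam P c C2 θ * mp P A (k + 1) x y (Ji x ξ)
  E1' : ∀ x y, dist x y ≤ P.r (k + 1) → ∀ ξ,
    ‖T (S.F y) ξ‖ ≤ gam P c C2 θ * mp P A (k + 1) x y (Ji x ξ)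
  E2 : ∀ x ξ ξ', |⟪Q (S.F x) ξ, ξ'⟫| ≤
    c * (15 * K2 C2) ^ 2 * (2 * B1 P θ) * (sg P A (k + 1) x x / 5) ^ 2 * ‖ξ‖ * ‖ξ'‖
  E3 : ∀ x, ‖Ψ (S.F x) - S.F x‖ ≤ gam P c C2 θ * (sg P A (k + 1) x x / 5) * P.r (k + 1)
  E4 : ∀ x y, dist x y ≤ P.r (k + 1) → ∀ ξ, ‖T (S.F x) ξ - T (S.F y) ξ‖ ≤
    gam P c C2 θ / P.r (k + 1) * (‖S.F x - S.F y‖ * mp P A (k + 1) x y (Ji x ξ) +
      ‖ξ‖ * mp P A (k + 1) x y (Ji x (S.F x - S.F y)))
  E5 : ∀ x y, dist x y ≤ P.r (k + 1) →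
    ‖Ψ (S.F y) - Ψ (S.F x) - (S.F y - S.F x) - T (S.F x) (S.F y - S.F x)‖ ≤
    gam P c C2 θ / P.r (k + 1) * ‖S.F y - S.F x‖ * mp P A (k + 1) x y (Ji x (S.F y - S.F x))

variable (hn : Num P ρ c C2 θ θ') (hA : Hyp P A) (h2 : Num2 P C2 κ θ B3)
  (S : St P A κ θ θ' B3 k)
include hn hA h2

theorem exists_gl [Nonempty X] (hglue : GlueC E ρ c) {Ji : X → E →L[ℝ] E}
    (hJ : ∀ x v, S.J x (Ji x v) = v ∧ Ji x (S.J x v) = v)
    (hsymm : ∀ p v v', Th S p v v' = Th S p v' v) : Nonempty (Gl c C2 S Ji) := by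
  have hr := hn.r_pos (k + 1)
  obtain ⟨ι, pt, χ, rel, hrel, hcard, hχ0, hχrel, hχsum, hχlip, hg⟩ := hglue (P.r (k + 1)) hr
  obtain ⟨p, hp⟩ := exists_centres hn hA h2 S pt ((ρ + 4) * P.r (k + 1))
  have hZ : ∀ a, ∃ Z : E →L[ℝ] E, ∀ ξ ξ', ⟪Z ξ, ξ'⟫ =
      1 / 2 * Th S (p a) (Ji (p a) ξ) (Ji (p a) ξ') := fun a => exists_op _ _
  choose Z hZ using hZ
  obtain ⟨Ψ, T, Q, -, hid, hest⟩ := hg (fun a => S.F (p a)) Z (by
    intro a v w
    rw [hZ, real_inner_comm, hZ, hsymm])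
  -- nearness
  have hseg : ∀ x y, dist x y ≤ P.r (k + 1) → ∀ z ∈ segment ℝ (S.F x) (S.F y),
      ‖z - S.F x‖ ≤ 3 * P.r (k + 1) ∧ ‖z - S.F y‖ ≤ 3 * P.r (k + 1) := by
    intro x y h z hz
    have h1 := F_le hn hA h2 S h
    obtain ⟨a, b, ha, hb, hab, rfl⟩ := hz
    have e1 : a • S.F x + b • S.F y - S.F x = b • (S.F y - S.F x) := by
      have : a = 1 - b := by linarith
      rw [this, sub_smul, one_smul, smul_sub]; abel
    have e2 : a • S.F x + b • S.F y - S.F y = -(a • (S.F y - S.F x)) := by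
      have : b = 1 - a := by linarith
      rw [this, sub_smul, one_smul, smul_sub]; abel
    rw [e1, e2, norm_neg, norm_smul, norm_smul, Real.norm_of_nonneg ha, Real.norm_of_nonneg hb]
    have h3 := norm_nonneg (S.F y - S.F x)
    constructor <;> nlinarith
  have hnear : ∀ x y, dist x y ≤ P.r (k + 1) → ∀ z ∈ segment ℝ (S.F x) (S.F y),
      ∀ a ∈ rel z, Near P A C2 k x y (p a) := by
    intro x y h z hz a ha
    obtain ⟨h1, h3⟩ := hseg x y h z hz
    have h4 := hrel z a ha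
    have hx : ‖S.F x - pt a‖ ≤ (ρ + 4) * P.r (k + 1) := by
      have := norm_sub_le (z - pt a) (z - S.F x)
      rw [sub_sub_sub_cancel_left] at this
      nlinarith
    have hy : ‖S.F y - pt a‖ ≤ (ρ + 4) * P.r (k + 1) := by
      have := norm_sub_le (z - pt a) (z - S.F y)
      rw [sub_sub_sub_cancel_left] at this
      nlinarith
    obtain ⟨p1, p2⟩ := hp a x hx
    obtain ⟨-, p3⟩ := hp a y hy
    exact ⟨h, dist_le_of_F hn hA h2 S hx p1, dist_le_of_F hn hA h2 S hy p1, p2, p3⟩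
  -- good points
  let M : X → X → Seminorm ℝ E := fun x y => (mpS P A (k + 1) x y).comp (Ji x : E →ₗ[ℝ] E)
  have hM : ∀ x y ξ, M x y ξ = mp P A (k + 1) x y (Ji x ξ) := fun x y ξ => rfl
  have hgood : ∀ x y, dist x y ≤ P.r (k + 1) → ∀ z ∈ segment ℝ (S.F x) (S.F y),
      Good rel (fun a => S.F (p a)) Z (M x y) (2 * B1 P θ)
        (15 * K2 C2 * (sg P A (k + 1) x y / 5) * P.r (k + 1)) z := by
    intro x y h z hz a ha
    have hN := hnear x y h z hz a ha
    constructor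
    · intro v w
      rw [hZ, hM, hM]
      have h1 := N5' hn hA h2 S hN (Ji (p a) v) (Ji (p a) w)
      have h3 := N4' hn hA h2 S hJ hN (Ji x v)
      have h4 := N4' hn hA h2 S hJ hN (Ji x w)
      rw [(hJ x _).1] at h3 h4
      have hB := B1_nonneg hn hA h2
      have h5 := mp_nonneg (P := P) (A := A) (k + 1) x y (Ji (p a) w)
      have h6 := mp_nonneg (P := P) (A := A) (k + 1) x y (Ji x v)
      rw [abs_mul, abs_of_pos (by norm_num : (0:ℝ) < 1 / 2)]
      calc _ ≤ 1 / 2 * (B1 P θ * mp P A (k + 1) x y (Ji (p a) v) *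
            mp P A (k + 1) x y (Ji (p a) w)) := by gcongr
        _ ≤ 1 / 2 * (B1 P θ * (2 * mp P A (k + 1) x y (Ji x v)) *
            (2 * mp P A (k + 1) x y (Ji x w))) := by gcongr
        _ = _ := by ring
    · have h1 := N1 hn hA h2 S hJ hN
      have h3 := N3 hn hA h2 S hJ hN
      have hs := sg_nonneg (P := P) (A := A) (k + 1) x y
      have hK : 0 ≤ K2 C2 := by have := hn.C2_ge; unfold K2; linarith
      have h1' : M x y (S.F x - S.F (p a)) ≤ 3 * K2 C2 * sg P A (k + 1) x y * P.r (k + 1) := by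
        rw [hM]
        refine h1.trans ?_
        have : 0 ≤ K2 C2 * sg P A (k + 1) x y * P.r (k + 1) := by positivity
        nlinarith
      have h3' : M x y (S.F y - S.F (p a)) ≤ 3 * K2 C2 * sg P A (k + 1) x y * P.r (k + 1) := h3
      obtain ⟨s, t, hs', ht', hst, rfl⟩ := hz
      have e : s • S.F x + t • S.F y - S.F (p a) =
          s • (S.F x - S.F (p a)) + t • (S.F y - S.F (p a)) := by
        rw [smul_sub, smul_sub]
        have : S.F (p a) = s • S.F (p a) + t • S.F (p a) := by rw [← add_smul, hst, one_smul]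
        nth_rewrite 1 [this]
        abel
      show M x y (s • S.F x + t • S.F y - S.F (p a)) ≤ _
      rw [e]
      refine (map_add_le_add (M x y) _ _).trans ?_
      rw [map_smul_eq_mul, map_smul_eq_mul, Real.norm_of_nonneg hs', Real.norm_of_nonneg ht']
      have e2 : 15 * K2 C2 * (sg P A (k + 1) x y / 5) * P.r (k + 1) =
          3 * K2 C2 * sg P A (k + 1) x y * P.r (k + 1) := by ring
      rw [e2]
      refine (add_le_add (mul_le_mul_of_nonneg_left h1' hs')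
        (mul_le_mul_of_nonneg_left h3' ht')).trans (le_of_eq ?_)
      rw [← add_mul, hst, one_mul]
  have hin : ∀ x y, dist x y ≤ P.r (k + 1) → _ := fun x y h =>
    hest (M x y) (2 * B1 P θ) (5 * √P.ε) (sg P A (k + 1) x y / 5) (15 * K2 C2)
      (by have := B1_nonneg hn hA h2; positivity)
      (by have := sg_nonneg (P := P) (A := A) (k + 1) x y; positivity)
      (by
        have h1 := sg_le hn hA (k + 1) x y
        have h3 := Real.sqrt_nonneg P.ε
        linarith)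
      (by have := hn.C2_ge; unfold K2; linarith)
      (fun ξ => by
        have := mp_small_e hn hA h2 S h (Ji x ξ)
        rwa [(hJ x _).1] at this)
      (fun ξ => by
        have h1 := sgN hn hA h (Ji x ξ)
        have h3 := J_le hn hA h2 S x (Ji x ξ)
        rw [(hJ x _).1] at h3
        have h4 := N_le_succ hn hA k x (Ji x ξ)
        have hs := sg_nonneg (P := P) (A := A) (k + 1) x y
        have h5 : ‖ξ‖ ≤ 11 / 5 * A.N (k + 1) x (Ji x ξ) := by linarith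
        have h6 := mul_le_mul_of_nonneg_left h5 hs
        have h7 := mp_nonneg (P := P) (A := A) (k + 1) x y (Ji x ξ)
        show sg P A (k + 1) x y / 5 * ‖ξ‖ ≤ mp P A (k + 1) x y (Ji x ξ)
        nlinarith)
  have hl : ∀ x y, S.F x ∈ segment ℝ (S.F x) (S.F y) := fun x y => left_mem_segment _ _ _
  have hrr : ∀ x y, S.F y ∈ segment ℝ (S.F x) (S.F y) := fun x y => right_mem_segment _ _ _
  have h00 : ∀ x : X, dist x x ≤ P.r (k + 1) := fun x => by rw [dist_self]; exact hr.le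
  refine ⟨⟨ι, p, χ, rel, Ψ, T, Q, hcard, hχ0, hχrel, hχsum, hχlip, ?_, ?_, ?_, ?_, ?_, ?_, ?_, ?_⟩⟩
  · intro x y h a ha
    exact hnear x y h _ (hl x y) a ha
  · intro x v v'
    rw [hid]
    congr 3
    rw [Finset.mul_sum]
    refine Finset.sum_congr rfl fun a _ => ?_
    rw [hZ]; ring
  · intro x y h ξ
    exact ((hin x y h).1 _ (hgood x y h _ (hl x y))).1 ξ
  · intro x y h ξ
    exact ((hin x y h).1 _ (hgood x y h _ (hrr x y))).1 ξ
  · intro x ξ ξ'
    exact ((hin x x (h00 x)).1 _ (hgood x x (h00 x) _ (hl x x))).2.1 ξ ξ'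
  · intro x
    exact ((hin x x (h00 x)).1 _ (hgood x x (h00 x) _ (hl x x))).2.2
  · intro x y h ξ
    exact (hin x y h).2.1 _ _ (hgood x y h _ (hl x y)) (hgood x y h _ (hrr x y)) ξ
  · intro x y h
    exact (hin x y h).2.2 _ _ (fun z hz => hgood x y h z hz)

end

end Vale.Agent.P242.PB
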