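import Vale.Agent.P242.H975.Step5

/-!
# P242, PART B: the error form `Δ_{k+1}`
-/

open scoped RealInnerProductSpace Topology
open Metric

set_option linter.unusedSectionVars false

noncomputable section

namespace Vale.Agent.P242.PB

section
variable {X : Type*} {E : Type} [MetricSpace X] [NormedAddCommGroup E] [InnerProductSpace ℝ E]
  [FiniteDimensional ℝ E]
variable {P : Par} {A : Data X E} {ρ c C2 θ θ' κ B3 : ℝ} {k : ℕ}

theorem Th_symm (hA : Hyp P A) (S : St P A κ θ θ' B3 k) (p : X) (v v' : E) :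
    Th S p v v' = Th S p v' v := by
  rw [Th_apply, Th_apply, hA.symm (k + 1), hA.symm k, S.symmΔ]

variable (hn : Num P ρ c C2 θ θ') (hA : Hyp P A) (h2 : Num2 P C2 κ θ B3)
  (S : St P A κ θ θ' B3 k)
include hn hA h2

section inv
variable {Ji : X → E →L[ℝ] E} (hJ : ∀ x v, S.J x (Ji x v) = v ∧ Ji x (S.J x v) = v)
include hJ

/-- the bound of the error attached to one centre -/
theorem c_bound {x y p : X} (h : Near P A C2 k x y p) (v v' : E) :
    |Th S p (Ji p (S.J x v)) (Ji p (S.J x v')) - Th S x v v'| ≤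
      th1 P C2 θ θ' κ * mp P A (k + 1) x y v * mp P A (k + 1) x y v' := by
  have hB := B1_nonneg hn hA h2
  have hq := q1_nonneg hn hA h2
  have hC2 := hn.C2_ge
  have a1 := N5' hn hA h2 S h (Ji p (S.J x v) - v) (Ji p (S.J x v'))
  have a2 := N5' hn hA h2 S h v (Ji p (S.J x v') - v')
  have b1 := N4 hn hA h2 S hJ h v
  have b2 := N4 hn hA h2 S hJ h v'
  have b3 := N4' hn hA h2 S hJ h v'
  have a3 := N7 hn hA h2 S h.xp h.Dx v v'
  have m1 := mm_le_mp (P := P) (A := A) (k + 1) x y v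
  have m2 := mm_le_mp (P := P) (A := A) (k + 1) x y v'
  have n1 := mm_nonneg (P := P) (A := A) (k + 1) x v
  have n2 := mm_nonneg (P := P) (A := A) (k + 1) x v'
  have n3 := mp_nonneg (P := P) (A := A) (k + 1) x y v
  have n4 := mp_nonneg (P := P) (A := A) (k + 1) x y v'
  have n5 := mp_nonneg (P := P) (A := A) (k + 1) x y (Ji p (S.J x v) - v)
  have n6 := mp_nonneg (P := P) (A := A) (k + 1) x y (Ji p (S.J x v'))
  have h0 : 0 ≤ th0 P C2 θ' := by
    unfold th0
    have := hn.hC1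
    have := hn.hθ'0
    have := hn.Λ0
    positivity
  set m := mp P A (k + 1) x y v
  set m' := mp P A (k + 1) x y v'
  have c1 : |Th S p (Ji p (S.J x v) - v) (Ji p (S.J x v'))| ≤
      90 * B1 P θ * C2 * q1 P κ * m * m' := by
    refine a1.trans ?_
    calc _ ≤ B1 P θ * (45 * C2 * q1 P κ * m) * (2 * m') := by gcongr
      _ = _ := by ring
  have c2 : |Th S p v (Ji p (S.J x v') - v')| ≤ 45 * B1 P θ * C2 * q1 P κ * m * m' := by
    refine a2.trans ?_
    calc _ ≤ B1 P θ * m * (45 * C2 * q1 P κ * m') := by gcongr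
      _ = _ := by ring
  have c3 : |Th S x v v' - Th S p v v'| ≤ th0 P C2 θ' * m * m' := by
    refine a3.trans ?_
    gcongr
  have e : Th S p (Ji p (S.J x v)) (Ji p (S.J x v')) - Th S x v v' =
      Th S p (Ji p (S.J x v) - v) (Ji p (S.J x v')) + Th S p v (Ji p (S.J x v') - v') -
        (Th S x v v' - Th S p v v') := by
    rw [map_sub (Th S p), _root_.sub_apply, map_sub (Th S p v)]
    ring
  rw [e]
  have d1 := abs_sub (Th S p (Ji p (S.J x v) - v) (Ji p (S.J x v')) +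
    Th S p v (Ji p (S.J x v') - v')) (Th S x v v' - Th S p v v')
  have d2 := abs_add_le (Th S p (Ji p (S.J x v) - v) (Ji p (S.J x v')))
    (Th S p v (Ji p (S.J x v') - v'))
  unfold th1
  have e2 : (th0 P C2 θ' + 135 * B1 P θ * C2 * q1 P κ) * m * m' =
    90 * B1 P θ * C2 * q1 P κ * m * m' + 45 * B1 P θ * C2 * q1 P κ * m * m' +
      th0 P C2 θ' * m * m' := by ring
  rw [e2]
  linarith

/-- the difference of the errors at `x` and `y` -/
theorem c_diff {x y p : X} (h : Near P A C2 k x y p) (v v' : E) :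
    |(Th S p (Ji p (S.J x v)) (Ji p (S.J x v')) - Th S x v v') -
      (Th S p (Ji p (S.J y v)) (Ji p (S.J y v')) - Th S y v v')| ≤
      ((P.C1 + P.C1 * K1 P ^ 2 / P.Λ + 2 * θ' * K1 P ^ 2 / P.Λ) + 36 * B1 P θ * q1 P κ) /
        P.r (k + 1) * Cl P A (k + 1) x y v v' := by
  have hr := hn.r_pos (k + 1)
  have hB := B1_nonneg hn hA h2
  have hq := q1_nonneg hn hA h2
  have a1 := N5' hn hA h2 S h (Ji p (S.J x v - S.J y v)) (Ji p (S.J x v'))
  have a2 := N5' hn hA h2 S h (Ji p (S.J y v)) (Ji p (S.J x v' - S.J y v'))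
  have a3 := N8 hn hA h2 S h.xy v v'
  have b1 := mp_small' hn hA h2 S h (Ji p (S.J x v - S.J y v))
  have b2 := mp_small' hn hA h2 S h (Ji p (S.J x v' - S.J y v'))
  rw [(hJ p _).1, norm_sub_rev] at b1 b2
  have b3 := J_diff hn hA h2 S h.xy v
  have b4 := J_diff hn hA h2 S h.xy v'
  have b5 := N4' hn hA h2 S hJ h v'
  have b6 := N4'' hn hA h2 S hJ h v
  have n1 := mp_nonneg (P := P) (A := A) (k + 1) x y v
  have n2 := mp_nonneg (P := P) (A := A) (k + 1) x y v'
  have n3 := mp_nonneg (P := P) (A := A) (k + 1) x y (A.u y - A.u x)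
  have n4 := N_nonneg (A := A) (k + 1) x v
  have n5 := N_nonneg (A := A) (k + 1) x v'
  have n6 := mp_nonneg (P := P) (A := A) (k + 1) x y (Ji p (S.J x v'))
  have n7 := mp_nonneg (P := P) (A := A) (k + 1) x y (Ji p (S.J y v))
  have n8 := mp_nonneg (P := P) (A := A) (k + 1) x y (Ji p (S.J x v - S.J y v))
  have n9 := mp_nonneg (P := P) (A := A) (k + 1) x y (Ji p (S.J x v' - S.J y v'))
  have hd : 0 ≤ dist x y := dist_nonneg
  have e : (Th S p (Ji p (S.J x v)) (Ji p (S.J x v')) - Th S x v v') -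
      (Th S p (Ji p (S.J y v)) (Ji p (S.J y v')) - Th S y v v') =
      Th S p (Ji p (S.J x v - S.J y v)) (Ji p (S.J x v')) +
        Th S p (Ji p (S.J y v)) (Ji p (S.J x v' - S.J y v')) - (Th S x v v' - Th S y v v') := by
    rw [map_sub (Ji p), map_sub (Ji p), map_sub (Th S p), _root_.sub_apply,
      map_sub (Th S p (Ji p (S.J y v)))]
    ring
  rw [e]
  have d1 := abs_sub (Th S p (Ji p (S.J x v - S.J y v)) (Ji p (S.J x v')) +
        Th S p (Ji p (S.J y v)) (Ji p (S.J x v' - S.J y v'))) (Th S x v v' - Th S y v v')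
  have d2 := abs_add_le (Th S p (Ji p (S.J x v - S.J y v)) (Ji p (S.J x v')))
        (Th S p (Ji p (S.J y v)) (Ji p (S.J x v' - S.J y v')))
  have hCl : Cl P A (k + 1) x y v v' = dist x y * mp P A (k + 1) x y v * mp P A (k + 1) x y v' +
    mp P A (k + 1) x y (A.u y - A.u x) * A.N (k + 1) x v * mp P A (k + 1) x y v' +
    mp P A (k + 1) x y (A.u y - A.u x) * A.N (k + 1) x v' * mp P A (k + 1) x y v := rfl
  set m := mp P A (k + 1) x y v
  set m' := mp P A (k + 1) x y v'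
  set W := mp P A (k + 1) x y (A.u y - A.u x)
  have c1 : |Th S p (Ji p (S.J x v - S.J y v)) (Ji p (S.J x v'))| ≤
      18 * B1 P θ * q1 P κ / P.r (k + 1) *
        (dist x y * m * m' + 2 * (W * A.N (k + 1) x v * m')) := by
    refine a1.trans ?_
    calc _ ≤ B1 P θ * (9 * (q1 P κ / P.r (k + 1) * (dist x y * m +
          2 * (A.N (k + 1) x v * W)))) * (2 * m') := by gcongr; linarith
      _ = _ := by ring
  have c2 : |Th S p (Ji p (S.J y v)) (Ji p (S.J x v' - S.J y v'))| ≤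
      18 * B1 P θ * q1 P κ / P.r (k + 1) *
        (dist x y * m * m' + 2 * (W * A.N (k + 1) x v' * m)) := by
    refine a2.trans ?_
    calc _ ≤ B1 P θ * (2 * m) * (9 * (q1 P κ / P.r (k + 1) * (dist x y * m' +
          2 * (A.N (k + 1) x v' * W)))) := by gcongr; linarith
      _ = _ := by ring
  have e2 : ((P.C1 + P.C1 * K1 P ^ 2 / P.Λ + 2 * θ' * K1 P ^ 2 / P.Λ) + 36 * B1 P θ * q1 P κ) /
        P.r (k + 1) * Cl P A (k + 1) x y v v' =
      (P.C1 + P.C1 * K1 P ^ 2 / P.Λ + 2 * θ' * K1 P ^ 2 / P.Λ) / P.r (k + 1) *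
        Cl P A (k + 1) x y v v' +
      (18 * B1 P θ * q1 P κ / P.r (k + 1) *
        (dist x y * m * m' + 2 * (W * A.N (k + 1) x v * m')) +
      18 * B1 P θ * q1 P κ / P.r (k + 1) *
        (dist x y * m * m' + 2 * (W * A.N (k + 1) x v' * m))) := by
    rw [hCl]; ring
  rw [e2]
  linarith

/-- the next differential -/
def J' (G : Gl c C2 S Ji) (x : X) : E →L[ℝ] E := (1 + G.T (S.F x)).comp (S.J x)

/-- the next remainder -/
def R' (G : Gl c C2 S Ji) (x : X) : Bi E :=
  S.R x + (2 : ℝ) • (ipB E).bilinearComp ((G.Q (S.F x)).comp (S.J x)) (S.J x)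

/-- the next error form -/
def D' (G : Gl c C2 S Ji) (x : X) : Bi E :=
  (ipB E).bilinearComp (J' S G x) (J' S G x) - A.g (k + 1) x - R' S G x

omit hn hA h2 hJ in
theorem J'_apply (G : Gl c C2 S Ji) (x : X) (v : E) :
    J' S G x v = S.J x v + G.T (S.F x) (S.J x v) := rfl

omit hn hA h2 hJ in
theorem R'_apply (G : Gl c C2 S Ji) (x : X) (v v' : E) :
    R' S G x v v' = S.R x v v' + 2 * ⟪G.Q (S.F x) (S.J x v), S.J x v'⟫ := rfl

omit hn hA h2 hJ in
theorem D'_apply (G : Gl c C2 S Ji) (x : X) (v v' : E) :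
    D' S G x v v' = ⟪J' S G x v, J' S G x v'⟫ - A.g (k + 1) x v v' - R' S G x v v' := rfl

omit hn hA h2 hJ in
/-- the key formula -/
theorem D'_eq (G : Gl c C2 S Ji) (x : X) (v v' : E) (s : Finset G.ι) (hs : G.rel (S.F x) ⊆ s) :
    D' S G x v v' = ∑ a ∈ s, G.χ a (S.F x) *
      (Th S (G.p a) (Ji (G.p a) (S.J x v)) (Ji (G.p a) (S.J x v')) - Th S x v v') +
      ⟪G.T (S.F x) (S.J x v), G.T (S.F x) (S.J x v')⟫ := by
  have h1 : ∑ a ∈ s, G.χ a (S.F x) *
      (Th S (G.p a) (Ji (G.p a) (S.J x v)) (Ji (G.p a) (S.J x v')) - Th S x v v') =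
      ∑ a ∈ G.rel (S.F x), G.χ a (S.F x) *
        Th S (G.p a) (Ji (G.p a) (S.J x v)) (Ji (G.p a) (S.J x v')) - Th S x v v' := by
    simp only [mul_sub, Finset.sum_sub_distrib, ← Finset.sum_mul]
    rw [G.χsum _ s hs, one_mul]
    congr 1
    refine (Finset.sum_subset hs fun a _ ha => ?_).symm
    rw [G.χrel a _ ha, zero_mul]
  rw [D'_apply, R'_apply, J'_apply, J'_apply, G.ident, S.I3, h1, Th_apply S x]
  ring

end inv

end

end Vale.Agent.P242.PB
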