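import Vale.Agent.P242.H975.Step6

/-!
# P242, PART B: the step lemma
-/

open scoped RealInnerProductSpace Topology
open Metric

set_option linter.unusedSectionVars false

noncomputable section

namespace Vale.Agent.P242.PB

section
variable {X : Type*} {E : Type} [MetricSpace X] [NormedAddCommGroup E] [InnerProductSpace ℝ E]
  [FiniteDimensional ℝ E]
variable {P : Par} {A : Data X E} {ρ c C2 θ θ' κ B3 : ℝ} {k : ℕ}

variable (hn : Num P ρ c C2 θ θ') (hA : Hyp P A) (h2 : Num2 P C2 κ θ B3)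
  (h3 : Num3 P c C2 κ θ θ' B3) (S : St P A κ θ θ' B3 k)
include hn hA h2 h3

theorem q1_le_κ : q1 P κ ≤ κ / 8 := by
  have hΛ := hn.Λ0
  have h := hn.hK1
  unfold q1 K1
  rw [div_le_div_iff₀ hΛ (by norm_num)]
  have := mul_le_mul_of_nonneg_left h h2.hκ0
  nlinarith

section inv
variable {Ji : X → E →L[ℝ] E} (hJ : ∀ x v, S.J x (Ji x v) = v ∧ Ji x (S.J x v) = v)
  (G : Gl c C2 S Ji)
include hJ

theorem T_le {x y : X} (h : dist x y ≤ P.r (k + 1)) (ξ : E) :
    ‖G.T (S.F x) ξ‖ ≤ 1 / 4 * ‖ξ‖ ∧ ‖G.T (S.F y) ξ‖ ≤ 1 / 4 * ‖ξ‖ := by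
  have h1 := G.E1 x y h ξ
  have h1' := G.E1' x y h ξ
  have h4 := mp_small hn hA h2 S h (Ji x ξ)
  rw [(hJ x _).1] at h4
  have h5 := gam_nonneg hn hA h2
  have h6 := h3.hγ
  have h7 := norm_nonneg ξ
  have h8 : gam P c C2 θ * mp P A (k + 1) x y (Ji x ξ) ≤ 1 / 20 * (5 * ‖ξ‖) := by
    have := mp_nonneg (P := P) (A := A) (k + 1) x y (Ji x ξ)
    gcongr
  constructor <;> linarith

/-- (I1) at level `k+1` -/
theorem nI1 {x y : X} (h : dist x y ≤ P.r (k + 1)) :
    ‖G.Ψ (S.F y) - G.Ψ (S.F x) - J' S G x (A.u y - A.u x)‖ ≤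
      κ / P.r (k + 1) * dist x y * mp P A (k + 1) x y (A.u y - A.u x) := by
  have hr := hn.r_pos (k + 1)
  have a1 := G.E5 x y h
  have a2 := F_diff hn hA h2 S h
  have a3 := (T_le hn hA h2 h3 S hJ G h (S.F y - S.F x - S.J x (A.u y - A.u x))).1
  have a4 := F_le hn hA h2 S h
  have a5 := N2 hn hA h2 S hJ h
  have hq := q1_nonneg hn hA h2
  have hqκ := q1_le_κ hn hA h2 h3
  have hγ := gam_nonneg hn hA h2
  have hγκ := h3.hκγ
  have hd : 0 ≤ dist x y := dist_nonneg
  set W := mp P A (k + 1) x y (A.u y - A.u x)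
  have hW : 0 ≤ W := mp_nonneg _ _ _ _
  have hW' := mp_nonneg (P := P) (A := A) (k + 1) x y (Ji x (S.F y - S.F x))
  have e : G.Ψ (S.F y) - G.Ψ (S.F x) - J' S G x (A.u y - A.u x) =
      (G.Ψ (S.F y) - G.Ψ (S.F x) - (S.F y - S.F x) - G.T (S.F x) (S.F y - S.F x)) +
      (S.F y - S.F x - S.J x (A.u y - A.u x)) +
      G.T (S.F x) (S.F y - S.F x - S.J x (A.u y - A.u x)) := by
    rw [J'_apply, map_sub (G.T (S.F x)) (S.F y - S.F x)]
    abel
  have b1 : gam P c C2 θ / P.r (k + 1) * ‖S.F y - S.F x‖ *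
      mp P A (k + 1) x y (Ji x (S.F y - S.F x)) ≤
      6 * gam P c C2 θ / P.r (k + 1) * dist x y * W := by
    calc _ ≤ gam P c C2 θ / P.r (k + 1) * (3 * dist x y) * (2 * W) := by gcongr
      _ = _ := by ring
  have b2 : 6 * gam P c C2 θ / P.r (k + 1) * dist x y * W +
      5 / 4 * (q1 P κ / P.r (k + 1) * dist x y * W) ≤ κ / P.r (k + 1) * dist x y * W := by
    rw [show 6 * gam P c C2 θ / P.r (k + 1) * dist x y * W +
      5 / 4 * (q1 P κ / P.r (k + 1) * dist x y * W) =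
      (6 * gam P c C2 θ + 5 / 4 * q1 P κ) / P.r (k + 1) * dist x y * W by ring]
    gcongr
    linarith [h2.hκ0]
  rw [e]
  have d1 := norm_add_le ((G.Ψ (S.F y) - G.Ψ (S.F x) - (S.F y - S.F x) -
    G.T (S.F x) (S.F y - S.F x)) + (S.F y - S.F x - S.J x (A.u y - A.u x)))
    (G.T (S.F x) (S.F y - S.F x - S.J x (A.u y - A.u x)))
  have d2 := norm_add_le (G.Ψ (S.F y) - G.Ψ (S.F x) - (S.F y - S.F x) -
    G.T (S.F x) (S.F y - S.F x)) (S.F y - S.F x - S.J x (A.u y - A.u x))
  linarith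

/-- the difference of the operators `T ∘ J` -/
theorem TJ_diff {x y : X} (h : dist x y ≤ P.r (k + 1)) (v : E) :
    ‖G.T (S.F x) (S.J x v) - G.T (S.F y) (S.J x v)‖ ≤
      5 * gam P c C2 θ / P.r (k + 1) * (dist x y * mp P A (k + 1) x y v +
        A.N (k + 1) x v * mp P A (k + 1) x y (A.u y - A.u x)) := by
  have hr := hn.r_pos (k + 1)
  have a1 := G.E4 x y h (S.J x v)
  have a4 := F_le hn hA h2 S h
  have a5 := N2 hn hA h2 S hJ h
  have a6 := J_le hn hA h2 S x v
  have a7 := N_le_succ hn hA k x v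
  have hγ := gam_nonneg hn hA h2
  have hd : 0 ≤ dist x y := dist_nonneg
  rw [(hJ x _).2, norm_sub_rev (S.F x), ← neg_sub (S.F y) (S.F x), map_neg, mp_neg] at a1
  set W := mp P A (k + 1) x y (A.u y - A.u x)
  have hW : 0 ≤ W := mp_nonneg _ _ _ _
  have hM := mp_nonneg (P := P) (A := A) (k + 1) x y v
  have hN := N_nonneg (A := A) (k + 1) x v
  have hW' := mp_nonneg (P := P) (A := A) (k + 1) x y (Ji x (S.F y - S.F x))
  have a8 : ‖S.J x v‖ ≤ 11 / 5 * A.N (k + 1) x v := by linarith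
  refine a1.trans ?_
  calc _ ≤ gam P c C2 θ / P.r (k + 1) * (3 * dist x y * mp P A (k + 1) x y v +
        11 / 5 * A.N (k + 1) x v * (2 * W)) := by gcongr
    _ ≤ gam P c C2 θ / P.r (k + 1) * (5 * (dist x y * mp P A (k + 1) x y v +
        A.N (k + 1) x v * W)) := by
      have : 0 ≤ dist x y * mp P A (k + 1) x y v := by positivity
      have : 0 ≤ A.N (k + 1) x v * W := by positivity
      refine mul_le_mul_of_nonneg_left (by linarith) (by positivity)
    _ = _ := by ring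

/-- (I2) at level `k+1` -/
theorem nI2 {x y : X} (h : dist x y ≤ P.r (k + 1)) (v : E) :
    ‖J' S G y v - J' S G x v‖ ≤ κ / P.r (k + 1) * (dist x y * mp P A (k + 1) x y v +
      A.N (k + 1) x v * mp P A (k + 1) x y (A.u y - A.u x)) := by
  have hr := hn.r_pos (k + 1)
  have a1 := TJ_diff hn hA h2 h3 S hJ G h v
  have a2 := J_diff hn hA h2 S h v
  have a3 := (T_le hn hA h2 h3 S hJ G h (S.J y v - S.J x v)).2
  have hq := q1_nonneg hn hA h2
  have hqκ := q1_le_κ hn hA h2 h3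
  have hγ := gam_nonneg hn hA h2
  have hγκ := h3.hκγ
  have hd : 0 ≤ dist x y := dist_nonneg
  set W := mp P A (k + 1) x y (A.u y - A.u x)
  have hW : 0 ≤ W := mp_nonneg _ _ _ _
  have hM := mp_nonneg (P := P) (A := A) (k + 1) x y v
  have hN := N_nonneg (A := A) (k + 1) x v
  set m := mp P A (k + 1) x y v
  have e : J' S G y v - J' S G x v = (S.J y v - S.J x v) + G.T (S.F y) (S.J y v - S.J x v) -
      (G.T (S.F x) (S.J x v) - G.T (S.F y) (S.J x v)) := by
    rw [J'_apply, J'_apply, map_sub (G.T (S.F y))]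
    abel
  rw [e]
  have d1 := norm_sub_le ((S.J y v - S.J x v) + G.T (S.F y) (S.J y v - S.J x v))
    (G.T (S.F x) (S.J x v) - G.T (S.F y) (S.J x v))
  have d2 := norm_add_le (S.J y v - S.J x v) (G.T (S.F y) (S.J y v - S.J x v))
  have b1 : 5 / 4 * (q1 P κ / P.r (k + 1) * (dist x y * m + 2 * (A.N (k + 1) x v * W))) ≤
      5 / 2 * (q1 P κ / P.r (k + 1) * (dist x y * m + A.N (k + 1) x v * W)) := by
    have : 0 ≤ dist x y * m := by positivity
    have h5 : 0 ≤ q1 P κ / P.r (k + 1) := by positivity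
    have h6 : q1 P κ / P.r (k + 1) * (dist x y * m + 2 * (A.N (k + 1) x v * W)) ≤
        q1 P κ / P.r (k + 1) * (2 * (dist x y * m + A.N (k + 1) x v * W)) :=
      mul_le_mul_of_nonneg_left (by linarith) h5
    linarith
  have b2 : 5 / 2 * (q1 P κ / P.r (k + 1) * (dist x y * m + A.N (k + 1) x v * W)) +
      5 * gam P c C2 θ / P.r (k + 1) * (dist x y * m + A.N (k + 1) x v * W) ≤
      κ / P.r (k + 1) * (dist x y * m + A.N (k + 1) x v * W) := by
    rw [show 5 / 2 * (q1 P κ / P.r (k + 1) * (dist x y * m + A.N (k + 1) x v * W)) +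
      5 * gam P c C2 θ / P.r (k + 1) * (dist x y * m + A.N (k + 1) x v * W) =
      (5 / 2 * q1 P κ + 5 * gam P c C2 θ) / P.r (k + 1) *
        (dist x y * m + A.N (k + 1) x v * W) by ring]
    gcongr
    linarith [h2.hκ0]
  linarith

/-- (I3) for `Δ` at level `k+1` -/
theorem nI3Δ (x : X) (v v' : E) :
    |D' S G x v v'| ≤ θ * mm P A (k + 1) x v * mm P A (k + 1) x v' := by
  have hr := hn.r_pos (k + 1)
  have h00 : dist x x ≤ P.r (k + 1) := by rw [dist_self]; exact hr.le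
  have n1 := mm_nonneg (P := P) (A := A) (k + 1) x v
  have n2 := mm_nonneg (P := P) (A := A) (k + 1) x v'
  have hγ := gam_nonneg hn hA h2
  have hθ1 := th1_nonneg hn hA h2
  rw [D'_eq S G x v v' _ subset_rfl]
  have a1 : |∑ a ∈ G.rel (S.F x), G.χ a (S.F x) *
      (Th S (G.p a) (Ji (G.p a) (S.J x v)) (Ji (G.p a) (S.J x v')) - Th S x v v')| ≤
      th1 P C2 θ θ' κ * mm P A (k + 1) x v * mm P A (k + 1) x v' := by
    refine (Finset.abs_sum_le_sum_abs _ _).trans ?_
    calc _ ≤ ∑ a ∈ G.rel (S.F x), G.χ a (S.F x) *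
          (th1 P C2 θ θ' κ * mm P A (k + 1) x v * mm P A (k + 1) x v') := by
          refine Finset.sum_le_sum fun a ha => ?_
          have h4 := c_bound hn hA h2 S hJ (G.near x x h00 a ha) v v'
          rw [mp_self, mp_self] at h4
          rw [abs_mul, abs_of_nonneg (G.χ0 a _)]
          exact mul_le_mul_of_nonneg_left h4 (G.χ0 a _)
      _ = _ := by rw [← Finset.sum_mul, G.χsum _ _ subset_rfl, one_mul]
  have a2 : |⟪G.T (S.F x) (S.J x v), G.T (S.F x) (S.J x v')⟫| ≤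
      gam P c C2 θ ^ 2 * mm P A (k + 1) x v * mm P A (k + 1) x v' := by
    refine (abs_real_inner_le_norm _ _).trans ?_
    have b1 := G.E1 x x h00 (S.J x v)
    have b2 := G.E1 x x h00 (S.J x v')
    rw [(hJ x _).2, mp_self] at b1 b2
    calc _ ≤ (gam P c C2 θ * mm P A (k + 1) x v) * (gam P c C2 θ * mm P A (k + 1) x v') := by
          gcongr
      _ = _ := by ring
  have a3 := mul_le_mul_of_nonneg_right (mul_le_mul_of_nonneg_right h3.hθ n1) n2
  refine (abs_add_le _ _).trans ?_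
  have a4 : (th1 P C2 θ θ' κ + gam P c C2 θ ^ 2) * mm P A (k + 1) x v * mm P A (k + 1) x v' =
    th1 P C2 θ θ' κ * mm P A (k + 1) x v * mm P A (k + 1) x v' +
    gam P c C2 θ ^ 2 * mm P A (k + 1) x v * mm P A (k + 1) x v' := by ring
  rw [a4] at a3
  linarith

/-- (I3) for `R` at level `k+1` -/
theorem nI3R (x : X) (v v' : E) : |R' S G x v v'| ≤
    B3 * ∑ j ∈ Finset.range (k + 1 + 1), A.D j x * A.N j x v * A.N j x v' := by
  have n1 := N_nonneg (A := A) (k + 1) x v
  have n2 := N_nonneg (A := A) (k + 1) x v'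
  rw [R'_apply, Finset.sum_range_succ, mul_add]
  refine (abs_add_le _ _).trans (add_le_add (S.I3R x v v') ?_)
  rw [abs_mul, abs_of_pos (by norm_num : (0:ℝ) < 2)]
  have a1 := G.E2 x (S.J x v) (S.J x v')
  have a2 := J_le hn hA h2 S x v
  have a3 := J_le hn hA h2 S x v'
  have a4 := N_le_succ hn hA k x v
  have a5 := N_le_succ hn hA k x v'
  have a6 : ‖S.J x v‖ ≤ 11 / 5 * A.N (k + 1) x v := by linarith
  have a7 : ‖S.J x v'‖ ≤ 11 / 5 * A.N (k + 1) x v' := by linarith
  have hD := D_pos hn hA (k + 1) x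
  have hB : 0 ≤ P.B := by linarith [hn.hB]
  have hsg : sg P A (k + 1) x x ^ 2 = P.B * A.D (k + 1) x := by
    unfold sg
    rw [max_self]
    exact Real.sq_sqrt (mul_nonneg hB hD.le)
  have hB1 := B1_nonneg hn hA h2
  have hc := hn.hc1
  have hb3 := h3.hB3
  set Kc := c * (15 * K2 C2) ^ 2 * (2 * B1 P θ) with hKc
  have hKc0 : 0 ≤ Kc := by rw [hKc]; positivity
  calc 2 * |⟪G.Q (S.F x) (S.J x v), S.J x v'⟫|
      ≤ 2 * (Kc * (sg P A (k + 1) x x / 5) ^ 2 * ‖S.J x v‖ * ‖S.J x v'‖) := by gcongr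
    _ ≤ 2 * (Kc * (sg P A (k + 1) x x / 5) ^ 2 * (11 / 5 * A.N (k + 1) x v) *
        (11 / 5 * A.N (k + 1) x v')) := by gcongr
    _ = 242 / 625 * (Kc * P.B) * (A.D (k + 1) x * A.N (k + 1) x v * A.N (k + 1) x v') := by
      rw [div_pow, hsg]; ring
    _ ≤ 1 * B3 * (A.D (k + 1) x * A.N (k + 1) x v * A.N (k + 1) x v') := by
      have : 0 ≤ Kc * P.B := by positivity
      gcongr
      norm_num
    _ = _ := by ring

/-- (I4) at level `k+1` -/
theorem nI4 {x y : X} (h : dist x y ≤ P.r (k + 1)) (v v' : E) :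
    |D' S G x v v' - D' S G y v v'| ≤ θ' / P.r (k + 1) * Cl P A (k + 1) x y v v' := by
  classical
  have hr := hn.r_pos (k + 1)
  have hc := hn.hc1
  have hq := q1_nonneg hn hA h2
  have hqκ := q1_le_κ hn hA h2 h3
  have hγ := gam_nonneg hn hA h2
  have hγκ := h3.hκγ
  have hθ1 := th1_nonneg hn hA h2
  have hd : 0 ≤ dist x y := dist_nonneg
  have hxy' : dist y x ≤ P.r (k + 1) := by rwa [dist_comm]
  set s := G.rel (S.F x) ∪ G.rel (S.F y) with hs
  have hnear : ∀ a ∈ s, Near P A C2 k x y (G.p a) := by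
    intro a ha
    rcases Finset.mem_union.1 ha with ha | ha
    · exact G.near x y h a ha
    · exact (G.near y x hxy' a ha).swap
  have hcard : (s.card : ℝ) ≤ 2 * c := by
    have h4 : (s.card : ℝ) ≤ (G.rel (S.F x)).card + (G.rel (S.F y)).card := by
      exact_mod_cast Finset.card_union_le _ _
    have := G.card (S.F x)
    have := G.card (S.F y)
    linarith
  have hCl0 := Cl_nonneg (P := P) (A := A) (k + 1) x y v v'
  have hCl1 : dist x y * mp P A (k + 1) x y v * mp P A (k + 1) x y v' ≤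
      Cl P A (k + 1) x y v v' := by
    unfold Cl
    have n3 := mp_nonneg (P := P) (A := A) (k + 1) x y (A.u y - A.u x)
    have n4 := N_nonneg (A := A) (k + 1) x v
    have n5 := N_nonneg (A := A) (k + 1) x v'
    have n6 := mp_nonneg (P := P) (A := A) (k + 1) x y v
    have n7 := mp_nonneg (P := P) (A := A) (k + 1) x y v'
    have : 0 ≤ mp P A (k + 1) x y (A.u y - A.u x) * A.N (k + 1) x v * mp P A (k + 1) x y v' := by
      positivity
    have : 0 ≤ mp P A (k + 1) x y (A.u y - A.u x) * A.N (k + 1) x v' * mp P A (k + 1) x y v := by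
      positivity
    linarith
  set Cx : G.ι → ℝ := fun a =>
    Th S (G.p a) (Ji (G.p a) (S.J x v)) (Ji (G.p a) (S.J x v')) - Th S x v v' with hCx
  set Cy : G.ι → ℝ := fun a =>
    Th S (G.p a) (Ji (G.p a) (S.J y v)) (Ji (G.p a) (S.J y v')) - Th S y v v' with hCy
  have e1 : D' S G x v v' = ∑ a ∈ s, G.χ a (S.F x) * Cx a +
      ⟪G.T (S.F x) (S.J x v), G.T (S.F x) (S.J x v')⟫ :=
    D'_eq S G x v v' s Finset.subset_union_left
  have e2 : D' S G y v v' = ∑ a ∈ s, G.χ a (S.F y) * Cy a +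
      ⟪G.T (S.F y) (S.J y v), G.T (S.F y) (S.J y v')⟫ :=
    D'_eq S G y v v' s Finset.subset_union_right
  -- the sum
  have t1 : |∑ a ∈ s, (G.χ a (S.F x) - G.χ a (S.F y)) * Cx a| ≤
      6 * c ^ 2 * th1 P C2 θ θ' κ / P.r (k + 1) * Cl P A (k + 1) x y v v' := by
    refine (Finset.abs_sum_le_sum_abs _ _).trans ?_
    have hF := F_le hn hA h2 S h
    rw [norm_sub_rev] at hF
    set m := mp P A (k + 1) x y v
    set m' := mp P A (k + 1) x y v'
    have n6 : 0 ≤ m := mp_nonneg _ _ _ _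
    have n7 : 0 ≤ m' := mp_nonneg _ _ _ _
    have h4 : ∀ a ∈ s, |(G.χ a (S.F x) - G.χ a (S.F y)) * Cx a| ≤
        c / P.r (k + 1) * (3 * dist x y) * (th1 P C2 θ θ' κ * m * m') := by
      intro a ha
      rw [abs_mul]
      have h5 := G.χlip a (S.F x) (S.F y)
      have h6 := c_bound hn hA h2 S hJ (hnear a ha) v v'
      calc _ ≤ (c / P.r (k + 1) * ‖S.F x - S.F y‖) * (th1 P C2 θ θ' κ * m * m') := by
            gcongr
        _ ≤ _ := by gcongr
    refine (Finset.sum_le_card_nsmul s _ _ h4).trans ?_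
    rw [nsmul_eq_mul]
    calc _ ≤ (2 * c) * (c / P.r (k + 1) * (3 * dist x y) * (th1 P C2 θ θ' κ * m * m')) := by
          gcongr
      _ = 6 * c ^ 2 * th1 P C2 θ θ' κ / P.r (k + 1) * (dist x y * m * m') := by ring
      _ ≤ _ := by gcongr
  have t2 : |∑ a ∈ s, G.χ a (S.F y) * (Cx a - Cy a)| ≤
      ((P.C1 + P.C1 * K1 P ^ 2 / P.Λ + 2 * θ' * K1 P ^ 2 / P.Λ) + 36 * B1 P θ * q1 P κ) /
        P.r (k + 1) * Cl P A (k + 1) x y v v' := by
    refine (Finset.abs_sum_le_sum_abs _ _).trans ?_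
    calc _ ≤ ∑ a ∈ s, G.χ a (S.F y) *
          (((P.C1 + P.C1 * K1 P ^ 2 / P.Λ + 2 * θ' * K1 P ^ 2 / P.Λ) + 36 * B1 P θ * q1 P κ) /
        P.r (k + 1) * Cl P A (k + 1) x y v v') := by
          refine Finset.sum_le_sum fun a ha => ?_
          rw [abs_mul, abs_of_nonneg (G.χ0 a _)]
          exact mul_le_mul_of_nonneg_left (c_diff hn hA h2 S hJ (hnear a ha) v v') (G.χ0 a _)
      _ = _ := by rw [← Finset.sum_mul, G.χsum _ s Finset.subset_union_right, one_mul]
  -- the quadratic term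
  have t3 : |⟪G.T (S.F x) (S.J x v), G.T (S.F x) (S.J x v')⟫ -
      ⟪G.T (S.F y) (S.J y v), G.T (S.F y) (S.J y v')⟫| ≤
      10 * gam P c C2 θ ^ 2 / P.r (k + 1) * Cl P A (k + 1) x y v v' := by
    set W := mp P A (k + 1) x y (A.u y - A.u x) with hW
    have hW0 : 0 ≤ W := mp_nonneg _ _ _ _
    have key : ∀ v, ‖G.T (S.F x) (S.J x v) - G.T (S.F y) (S.J y v)‖ ≤
        5 * gam P c C2 θ / P.r (k + 1) * (dist x y * mp P A (k + 1) x y v +
          W * A.N (k + 1) x v) := by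
      intro v
      have n6 := mp_nonneg (P := P) (A := A) (k + 1) x y v
      have n4 := N_nonneg (A := A) (k + 1) x v
      have hF := F_le hn hA h2 S h
      have a1 := G.E4 x y h (S.J x v)
      have a5 := N2 hn hA h2 S hJ h
      have a6 := J_le hn hA h2 S x v
      have a7 := N_le_succ hn hA k x v
      rw [(hJ x _).2, norm_sub_rev (S.F x), ← neg_sub (S.F y) (S.F x), map_neg, mp_neg] at a1
      have a8 : ‖S.J x v‖ ≤ 11 / 5 * A.N (k + 1) x v := by linarith
      have hW' := mp_nonneg (P := P) (A := A) (k + 1) x y (Ji x (S.F y - S.F x))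
      have b1 : ‖G.T (S.F x) (S.J x v) - G.T (S.F y) (S.J x v)‖ ≤
          gam P c C2 θ / P.r (k + 1) * (3 * dist x y * mp P A (k + 1) x y v +
          11 / 5 * A.N (k + 1) x v * (2 * W)) := by
        refine a1.trans ?_
        gcongr
      have b2 := G.E1' x y h (S.J y v - S.J x v)
      have b3 := mp_small hn hA h2 S h (Ji x (S.J y v - S.J x v))
      rw [(hJ x _).1] at b3
      have b4 := J_diff hn hA h2 S h v
      have b5 : ‖G.T (S.F y) (S.J y v - S.J x v)‖ ≤ gam P c C2 θ * (5 *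
          (q1 P κ / P.r (k + 1) * (dist x y * mp P A (k + 1) x y v +
          2 * (A.N (k + 1) x v * W)))) := by
        refine b2.trans ?_
        have := b3.trans (mul_le_mul_of_nonneg_left b4 (by norm_num : (0:ℝ) ≤ 5))
        gcongr
      have hq' := (q1_le' hn hA h2).1
      have e : G.T (S.F x) (S.J x v) - G.T (S.F y) (S.J y v) =
          (G.T (S.F x) (S.J x v) - G.T (S.F y) (S.J x v)) -
            G.T (S.F y) (S.J y v - S.J x v) := by
        rw [map_sub (G.T (S.F y))]; abel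
      rw [e]
      refine (norm_sub_le _ _).trans ((add_le_add b1 b5).trans ?_)
      have f1 : gam P c C2 θ / P.r (k + 1) * (3 * dist x y * mp P A (k + 1) x y v +
          11 / 5 * A.N (k + 1) x v * (2 * W)) + gam P c C2 θ * (5 *
          (q1 P κ / P.r (k + 1) * (dist x y * mp P A (k + 1) x y v +
          2 * (A.N (k + 1) x v * W)))) = gam P c C2 θ / P.r (k + 1) *
          ((3 + 5 * q1 P κ) * (dist x y * mp P A (k + 1) x y v) +
            (22 / 5 + 10 * q1 P κ) * (W * A.N (k + 1) x v)) := by ring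
      rw [f1]
      have f2 : (3 + 5 * q1 P κ) * (dist x y * mp P A (k + 1) x y v) ≤
          5 * (dist x y * mp P A (k + 1) x y v) :=
        mul_le_mul_of_nonneg_right (by linarith) (by positivity)
      have f3 : (22 / 5 + 10 * q1 P κ) * (W * A.N (k + 1) x v) ≤ 5 * (W * A.N (k + 1) x v) :=
        mul_le_mul_of_nonneg_right (by linarith) (by positivity)
      calc _ ≤ gam P c C2 θ / P.r (k + 1) * (5 * (dist x y * mp P A (k + 1) x y v) +
            5 * (W * A.N (k + 1) x v)) :=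
            mul_le_mul_of_nonneg_left (add_le_add f2 f3) (by positivity)
        _ = _ := by ring
    have n4 := N_nonneg (A := A) (k + 1) x v
    have n5 := N_nonneg (A := A) (k + 1) x v'
    have n6 := mp_nonneg (P := P) (A := A) (k + 1) x y v
    have n7 := mp_nonneg (P := P) (A := A) (k + 1) x y v'
    have k1 := key v
    have k2 := key v'
    have l1 := G.E1 x y h (S.J x v')
    rw [(hJ x _).2] at l1
    have l2 := G.E1 y x hxy' (S.J y v)
    rw [(hJ y _).2, mp_comm] at l2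
    have e : ⟪G.T (S.F x) (S.J x v), G.T (S.F x) (S.J x v')⟫ -
        ⟪G.T (S.F y) (S.J y v), G.T (S.F y) (S.J y v')⟫ =
        ⟪G.T (S.F x) (S.J x v) - G.T (S.F y) (S.J y v), G.T (S.F x) (S.J x v')⟫ +
        ⟪G.T (S.F y) (S.J y v), G.T (S.F x) (S.J x v') - G.T (S.F y) (S.J y v')⟫ := by
      rw [inner_sub_left, inner_sub_right]; ring
    rw [e]
    refine (abs_add_le _ _).trans ?_
    have f1 := abs_real_inner_le_norm (G.T (S.F x) (S.J x v) - G.T (S.F y) (S.J y v))
      (G.T (S.F x) (S.J x v'))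
    have f2 := abs_real_inner_le_norm (G.T (S.F y) (S.J y v))
      (G.T (S.F x) (S.J x v') - G.T (S.F y) (S.J y v'))
    set m := mp P A (k + 1) x y v
    set m' := mp P A (k + 1) x y v'
    have g1 : ‖G.T (S.F x) (S.J x v) - G.T (S.F y) (S.J y v)‖ * ‖G.T (S.F x) (S.J x v')‖ ≤
        (5 * gam P c C2 θ / P.r (k + 1) * (dist x y * m + W * A.N (k + 1) x v)) *
          (gam P c C2 θ * m') := by gcongr
    have g2 : ‖G.T (S.F y) (S.J y v)‖ * ‖G.T (S.F x) (S.J x v') - G.T (S.F y) (S.J y v')‖ ≤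
        (gam P c C2 θ * m) *
          (5 * gam P c C2 θ / P.r (k + 1) * (dist x y * m' + W * A.N (k + 1) x v')) := by
      gcongr
    have hCl : Cl P A (k + 1) x y v v' = dist x y * m * m' + W * A.N (k + 1) x v * m' +
      W * A.N (k + 1) x v' * m := rfl
    have g3 : (5 * gam P c C2 θ / P.r (k + 1) * (dist x y * m + W * A.N (k + 1) x v)) *
          (gam P c C2 θ * m') + (gam P c C2 θ * m) *
          (5 * gam P c C2 θ / P.r (k + 1) * (dist x y * m' + W * A.N (k + 1) x v')) =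
        5 * gam P c C2 θ ^ 2 / P.r (k + 1) * (2 * (dist x y * m * m') +
          W * A.N (k + 1) x v * m' + W * A.N (k + 1) x v' * m) := by ring
    have g4 : 5 * gam P c C2 θ ^ 2 / P.r (k + 1) * (2 * (dist x y * m * m') +
          W * A.N (k + 1) x v * m' + W * A.N (k + 1) x v' * m) ≤
        5 * gam P c C2 θ ^ 2 / P.r (k + 1) * (2 * Cl P A (k + 1) x y v v') := by
      rw [hCl]
      refine mul_le_mul_of_nonneg_left ?_ (by positivity)
      have : 0 ≤ W * A.N (k + 1) x v * m' := by positivity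
      have : 0 ≤ W * A.N (k + 1) x v' * m := by positivity
      linarith
    have g5 : 5 * gam P c C2 θ ^ 2 / P.r (k + 1) * (2 * Cl P A (k + 1) x y v v') =
      10 * gam P c C2 θ ^ 2 / P.r (k + 1) * Cl P A (k + 1) x y v v' := by ring
    linarith
  have e3 : D' S G x v v' - D' S G y v v' =
      ∑ a ∈ s, (G.χ a (S.F x) - G.χ a (S.F y)) * Cx a +
      ∑ a ∈ s, G.χ a (S.F y) * (Cx a - Cy a) +
      (⟪G.T (S.F x) (S.J x v), G.T (S.F x) (S.J x v')⟫ -
      ⟪G.T (S.F y) (S.J y v), G.T (S.F y) (S.J y v')⟫) := by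
    rw [e1, e2, ← Finset.sum_add_distrib]
    have : ∑ a ∈ s, ((G.χ a (S.F x) - G.χ a (S.F y)) * Cx a + G.χ a (S.F y) * (Cx a - Cy a)) =
        ∑ a ∈ s, G.χ a (S.F x) * Cx a - ∑ a ∈ s, G.χ a (S.F y) * Cy a := by
      rw [← Finset.sum_sub_distrib]
      refine Finset.sum_congr rfl fun a _ => ?_
      ring
    rw [this]; ring
  rw [e3]
  refine (abs_add_le _ _).trans ((add_le_add ((abs_add_le _ _).trans (add_le_add t1 t2)) t3).trans
    ?_)
  rw [← add_mul, ← add_mul, ← add_div, ← add_div]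
  refine mul_le_mul_of_nonneg_right ?_ hCl0
  refine div_le_div_of_nonneg_right ?_ hr.le
  have := h3.hθ'
  linarith

end inv

end

end Vale.Agent.P242.PB
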